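import Vale.Agent.P237.Defs

/-!
P237, row AFF: affine images.
-/

open MeasureTheory Set
open scoped Pointwise RealInnerProductSpace

namespace P237

/-- the membership criterion (row SWEEP) -/
def MemIff : Prop := ∀ (n : ℕ) (K : Set (E n)), Body K → ∀ x : E n,
  x ∈ projBody K ↔ ∀ u : E n, ⟪x, u⟫ ≤ sw K u

namespace Aff

theorem body_image {n : ℕ} {K : Set (E n)} (hK : Body K) (T : E n ≃L[ℝ] E n) (a : E n) :
    Body ((fun x => a + T x) '' K) := by
  refine ⟨?_, ?_, ?_⟩
  · have h1 : (fun x => a + T x) '' K = (fun y => a + y) '' (T '' K) := by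
      rw [image_image]
    rw [h1]
    exact ((hK.convex.linear_image (T : E n →ₗ[ℝ] E n))).translate a
  · exact hK.compact.image (by fun_prop)
  · obtain ⟨x, hx⟩ := hK.int
    refine ⟨a + T x, ?_⟩
    have h2 : IsOpen ((fun x => a + T x) '' interior K) := by
      have h3 : (fun x => a + T x) '' interior K = (fun y => a + y) '' (T '' interior K) := by
        rw [image_image]
      rw [h3]
      exact (Homeomorph.addLeft a).isOpenMap _ (T.toHomeomorph.isOpenMap _ isOpen_interior)
    exact (interior_maximal (image_mono interior_subset) h2) ⟨x, hx, rfl⟩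

theorem sw_image {n : ℕ} (K : Set (E n)) (T : E n ≃L[ℝ] E n) (a u : E n) :
    sw ((fun x => a + T x) '' K) u =
      |LinearMap.det (T : E n →ₗ[ℝ] E n)| * sw K (T.symm u) := by
  have hv : ∀ S : Set (E n), volume ((fun x => a + T x) '' S) =
      ENNReal.ofReal |LinearMap.det (T : E n →ₗ[ℝ] E n)| * volume S := by
    intro S
    have h1 : (fun x => a + T x) '' S = (fun y => a + y) '' (T '' S) := by
      rw [image_image]
    rw [h1]
    have h2 : volume ((fun y => a + y) '' (T '' S)) = volume (T '' S) := by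
      rw [image_add_left]
      exact measure_preimage_add volume (-a) _
    rw [h2]
    exact Measure.addHaar_image_continuousLinearEquiv volume T S
  have hsum : (fun x => a + T x) '' K + segment ℝ 0 u =
      (fun x => a + T x) '' (K + segment ℝ 0 (T.symm u)) := by
    ext z
    constructor
    · rintro ⟨_, ⟨x, hx, rfl⟩, y, hy, rfl⟩
      rw [segment_eq_image] at hy
      obtain ⟨t, ht, rfl⟩ := hy
      refine ⟨x + t • T.symm u, ⟨x, hx, t • T.symm u, ?_, rfl⟩, ?_⟩
      · rw [segment_eq_image]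
        exact ⟨t, ht, by simp⟩
      · simp [add_assoc]
    · rintro ⟨_, ⟨x, hx, y, hy, rfl⟩, rfl⟩
      rw [segment_eq_image] at hy
      obtain ⟨t, ht, rfl⟩ := hy
      refine ⟨a + T x, ⟨x, hx, rfl⟩, t • u, ?_, ?_⟩
      · rw [segment_eq_image]
        exact ⟨t, ht, by simp⟩
      · simp [add_assoc]
  rw [sw, sw, hsum, hv, hv, ENNReal.toReal_mul, ENNReal.toReal_mul,
    ENNReal.toReal_ofReal (abs_nonneg _)]
  ring

theorem sw_le {n : ℕ} {K : Set (E n)} (hK : IsCompact K) {u : E n} (hu : ‖u‖ ≤ 1) :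
    sw K u ≤ (volume (K + Metric.closedBall (0 : E n) 1)).toReal := by
  have hfin : volume (K + Metric.closedBall (0 : E n) 1) ≠ ⊤ :=
    (hK.add (isCompact_closedBall _ _)).measure_lt_top.ne
  have h1 : segment ℝ 0 u ⊆ Metric.closedBall (0 : E n) 1 := by
    refine (convex_closedBall (0 : E n) 1).segment_subset (by simp) ?_
    simpa using hu
  have h2 : (volume (K + segment ℝ 0 u)).toReal ≤
      (volume (K + Metric.closedBall (0 : E n) 1)).toReal :=
    ENNReal.toReal_mono hfin (measure_mono (add_subset_add_left h1))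
  have h3 : (0 : ℝ) ≤ (volume K).toReal := ENNReal.toReal_nonneg
  rw [sw]
  linarith

theorem projBody_bounded (hM : MemIff) {n : ℕ} {K : Set (E n)} (hK : Body K) :
    projBody K ⊆ Metric.closedBall 0
      (volume (K + Metric.closedBall (0 : E n) 1)).toReal := by
  intro x hx
  rw [mem_closedBall_zero_iff]
  by_cases h0 : x = 0
  · rw [h0, norm_zero]
    exact ENNReal.toReal_nonneg
  have hx0 : ‖x‖ ≠ 0 := norm_ne_zero_iff.2 h0
  have h1 := (hM n K hK x).1 hx (‖x‖⁻¹ • x)
  have h2 : ⟪x, ‖x‖⁻¹ • x⟫ = ‖x‖ := by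
    rw [real_inner_smul_right, real_inner_self_eq_norm_sq, pow_two, ← mul_assoc,
      inv_mul_cancel₀ hx0, one_mul]
  rw [h2] at h1
  refine h1.trans (sw_le hK.compact ?_)
  rw [norm_smul, norm_inv, norm_norm, inv_mul_cancel₀ hx0]

theorem volume_projBody_lt_top (hM : MemIff) {n : ℕ} {K : Set (E n)} (hK : Body K) :
    volume (projBody K) < ⊤ :=
  lt_of_le_of_lt (measure_mono (projBody_bounded hM hK))
    (isCompact_closedBall _ _).measure_lt_top

end Aff

/-- [AFF] -/
theorem aff (hM : MemIff) {n : ℕ} {K : Set (E n)} (hK : Body K) (T : E n ≃L[ℝ] E n) (a : E n) :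
    |LinearMap.det (T : E n →ₗ[ℝ] E n)| ^ (n - 1) * vol (projBody K) ≤
      vol (projBody ((fun x => a + T x) '' K)) := by
  classical
  rcases Nat.eq_zero_or_pos n with rfl | hn
  · -- dimension zero
    have hne : ∀ L : Set (E 0), Body L → projBody L = Set.univ := by
      intro L _
      refine Set.eq_univ_of_forall fun x u hu => ?_
      have : u = 0 := Subsingleton.elim _ _
      rw [this, norm_zero] at hu
      exact absurd hu (by norm_num)
    rw [hne K hK, hne _ (Aff.body_image hK T a)]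
    simp
  set d := |LinearMap.det (T : E n →ₗ[ℝ] E n)| with hd
  have hdet : LinearMap.det (T : E n →ₗ[ℝ] E n) ≠ 0 :=
    (LinearEquiv.isUnit_det' T.toLinearEquiv).ne_zero
  have hd0 : 0 < d := abs_pos.2 hdet
  -- the adjoint of the inverse
  let S : E n →L[ℝ] E n := ContinuousLinearMap.adjoint (T.symm : E n →L[ℝ] E n)
  have hS : ∀ x u, ⟪S x, u⟫ = ⟪x, T.symm u⟫ := fun x u =>
    ContinuousLinearMap.adjoint_inner_left _ _ _
  have hdetS : LinearMap.det (S : E n →ₗ[ℝ] E n) =
      (LinearMap.det (T : E n →ₗ[ℝ] E n))⁻¹ := by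
    have h1 : (S : E n →ₗ[ℝ] E n) = LinearMap.adjoint (T.symm : E n →ₗ[ℝ] E n) := by
      rw [LinearMap.eq_adjoint_iff]
      intro x y
      exact hS x y
    have h2 : LinearMap.det (LinearMap.adjoint (T.symm : E n →ₗ[ℝ] E n)) =
        LinearMap.det (T.symm : E n →ₗ[ℝ] E n) := by
      let v := EuclideanSpace.basisFun (Fin n) ℝ
      rw [← LinearMap.det_toMatrix v.toBasis, ← LinearMap.det_toMatrix v.toBasis,
        LinearMap.toMatrix_adjoint v v, Matrix.det_conjTranspose]
      simp
    rw [h1, h2]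
    have h3 : LinearMap.det (T : E n →ₗ[ℝ] E n) * LinearMap.det (T.symm : E n →ₗ[ℝ] E n) = 1 := by
      rw [← LinearMap.det_comp]
      have : (T : E n →ₗ[ℝ] E n).comp (T.symm : E n →ₗ[ℝ] E n) = LinearMap.id := by
        ext1 x
        simp
      rw [this, LinearMap.det_id]
    exact eq_inv_of_mul_eq_one_right h3
  have hsub : (fun x => d • S x) '' projBody K ⊆ projBody ((fun x => a + T x) '' K) := by
    rintro _ ⟨x, hx, rfl⟩
    rw [hM n _ (Aff.body_image hK T a)]
    intro u
    rw [Aff.sw_image, real_inner_smul_left, hS, ← hd]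
    exact mul_le_mul_of_nonneg_left ((hM n K hK x).1 hx _) hd0.le
  have himg : volume ((fun x => d • S x) '' projBody K) =
      ENNReal.ofReal (d ^ (n - 1)) * volume (projBody K) := by
    have h1 : (fun x => d • S x) '' projBody K =
        ((d • S : E n →L[ℝ] E n) : E n →ₗ[ℝ] E n) '' projBody K := rfl
    rw [h1, Measure.addHaar_image_linearMap]
    congr 2
    have h2 : (((d • S : E n →L[ℝ] E n)) : E n →ₗ[ℝ] E n) = d • (S : E n →ₗ[ℝ] E n) := rfl
    rw [h2, LinearMap.det_smul, hdetS, finrank_euclideanSpace_fin, abs_mul, abs_inv, ← hd,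
      abs_pow, abs_of_pos hd0]
    obtain ⟨m, rfl⟩ : ∃ m, n = m + 1 := ⟨n - 1, by omega⟩
    rw [Nat.add_sub_cancel, pow_succ, mul_assoc, mul_inv_cancel₀ hd0.ne', mul_one]
  have h3 := ENNReal.toReal_mono (Aff.volume_projBody_lt_top hM (Aff.body_image hK T a)).ne
    (measure_mono hsub)
  rw [himg, ENNReal.toReal_mul, ENNReal.toReal_ofReal (pow_nonneg hd0.le _)] at h3
  exact h3

end P237
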