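import Vale.Agent.P237.Defs

/-!
# P237, row AFF: projection bodies of affine images
-/

open MeasureTheory Set
open scoped Pointwise RealInnerProductSpace

namespace P237

namespace AffE

variable {n : ℕ}

theorem body_image {K : Set (E n)} (hK : Body K) (T : E n ≃L[ℝ] E n) (a : E n) :
    Body ((fun x => a + T x) '' K) := by
  let h : E n ≃ₜ E n := T.toHomeomorph.trans (Homeomorph.addLeft a)
  have hh : (h : E n → E n) = fun x => a + T x := rfl
  refine ⟨?_, ?_, ?_⟩
  · have : (fun x => a + T x) '' K = (fun x => a + x) '' (T '' K) := by rw [image_image]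
    rw [this]
    exact (hK.convex.linear_image (T : E n →L[ℝ] E n).toLinearMap).translate a
  · exact hK.compact.image (by fun_prop)
  · rw [← hh, ← h.image_interior]
    exact hK.int.image _

theorem image_add_segment (K : Set (E n)) (T : E n ≃L[ℝ] E n) (a u : E n) :
    (fun x => a + T x) '' K + segment ℝ 0 u =
      (fun x => a + T x) '' (K + segment ℝ 0 (T.symm u)) := by
  have h1 : segment ℝ 0 u = T '' segment ℝ 0 (T.symm u) := by
    have := image_segment ℝ (T : E n →L[ℝ] E n).toLinearMap.toAffineMap 0 (T.symm u)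
    simp only [LinearMap.coe_toAffineMap, map_zero] at this
    rw [show (T : E n → E n) '' segment ℝ 0 (T.symm u) =
      ((T : E n →L[ℝ] E n).toLinearMap : E n → E n) '' segment ℝ 0 (T.symm u) from rfl, this]
    simp
  rw [h1]
  ext y
  simp only [mem_add, mem_image]
  constructor
  · rintro ⟨_, ⟨x, hx, rfl⟩, _, ⟨z, hz, rfl⟩, rfl⟩
    exact ⟨x + z, ⟨x, hx, z, hz, rfl⟩, by rw [map_add]; abel⟩
  · rintro ⟨_, ⟨x, hx, z, hz, rfl⟩, rfl⟩
    exact ⟨_, ⟨x, hx, rfl⟩, _, ⟨z, hz, rfl⟩, by rw [map_add]; abel⟩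

/-- The absolute value of the determinant. -/
noncomputable def dt (T : E n ≃L[ℝ] E n) : ℝ :=
  |LinearMap.det ((T : E n →L[ℝ] E n) : E n →ₗ[ℝ] E n)|

theorem dt_pos (T : E n ≃L[ℝ] E n) : 0 < dt T :=
  abs_pos.2 (LinearEquiv.isUnit_det' T.toLinearEquiv).ne_zero

theorem volume_image (T : E n ≃L[ℝ] E n) (a : E n) (S : Set (E n)) :
    volume ((fun x => a + T x) '' S) = ENNReal.ofReal (dt T) * volume S := by
  have : (fun x => a + T x) '' S = (fun x => a + x) '' (T '' S) := by rw [image_image]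
  rw [this, image_add_left, measure_preimage_add]
  exact Measure.addHaar_image_continuousLinearEquiv volume T S

theorem sw_image (K : Set (E n)) (T : E n ≃L[ℝ] E n) (a u : E n) :
    sw ((fun x => a + T x) '' K) u = dt T * sw K (T.symm u) := by
  unfold sw
  rw [image_add_segment, volume_image, volume_image, ENNReal.toReal_mul, ENNReal.toReal_mul,
    ENNReal.toReal_ofReal (dt_pos T).le]
  ring

/-- The linear map which carries the projection body of the image back. -/
noncomputable def back (T : E n ≃L[ℝ] E n) : E n →L[ℝ] E n :=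
  (dt T)⁻¹ • ContinuousLinearMap.adjoint (T : E n →L[ℝ] E n)

theorem det_adjoint (T : E n →L[ℝ] E n) :
    LinearMap.det ((ContinuousLinearMap.adjoint T : E n →L[ℝ] E n) : E n →ₗ[ℝ] E n) =
      LinearMap.det (T : E n →ₗ[ℝ] E n) := by
  have h : ((ContinuousLinearMap.adjoint T : E n →L[ℝ] E n) : E n →ₗ[ℝ] E n) =
      LinearMap.adjoint (T : E n →ₗ[ℝ] E n) := rfl
  rw [h, ← LinearMap.det_toMatrix (EuclideanSpace.basisFun (Fin n) ℝ).toBasis,
    ← LinearMap.det_toMatrix (EuclideanSpace.basisFun (Fin n) ℝ).toBasis (T : E n →ₗ[ℝ] E n),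
    LinearMap.toMatrix_adjoint, Matrix.det_conjTranspose]
  simp

theorem det_back (T : E n ≃L[ℝ] E n) :
    |LinearMap.det ((back T : E n →L[ℝ] E n) : E n →ₗ[ℝ] E n)| = (dt T)⁻¹ ^ n * dt T := by
  unfold back
  rw [ContinuousLinearMap.toLinearMap_smul, LinearMap.det_smul, det_adjoint, abs_mul, abs_pow,
    abs_of_pos (inv_pos.2 (dt_pos T)), finrank_euclideanSpace_fin]
  rfl

theorem projBody_image
    (hmem : ∀ K : Set (E n), Body K → ∀ x, x ∈ projBody K ↔ ∀ u, ⟪x, u⟫ ≤ sw K u)
    {K : Set (E n)} (hK : Body K) (T : E n ≃L[ℝ] E n) (a : E n) :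
    projBody ((fun x => a + T x) '' K) = back T ⁻¹' projBody K := by
  ext y
  rw [mem_preimage, hmem _ (body_image hK T a), hmem _ hK]
  have key : ∀ v, ⟪back T y, v⟫ = (dt T)⁻¹ * ⟪y, T v⟫ := fun v => by
    unfold back
    rw [_root_.smul_apply, real_inner_smul_left,
      ContinuousLinearMap.adjoint_inner_left]
    rfl
  constructor
  · intro h v
    have := h (T v)
    rw [sw_image, T.symm_apply_apply] at this
    rw [key, inv_mul_le_iff₀ (dt_pos T)]
    exact this
  · intro h u
    have := h (T.symm u)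
    rw [key, inv_mul_le_iff₀ (dt_pos T), T.apply_symm_apply] at this
    rw [sw_image]
    exact this

theorem dt_pow (T : E n ≃L[ℝ] E n) : ((dt T)⁻¹ ^ n * dt T)⁻¹ = dt T ^ (n - 1) := by
  rcases Nat.eq_zero_or_pos n with rfl | hn
  · have : dt T = 1 := by
      unfold dt
      rw [LinearMap.det_eq_one_of_subsingleton]
      simp
    simp [this]
  · obtain ⟨m, rfl⟩ : ∃ m, n = m + 1 := ⟨n - 1, by omega⟩
    have := (dt_pos T).ne'
    rw [Nat.add_sub_cancel, pow_succ, mul_assoc, inv_mul_cancel₀ this, mul_one, inv_pow, inv_inv]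

theorem vol_projBody_image
    (hmem : ∀ K : Set (E n), Body K → ∀ x, x ∈ projBody K ↔ ∀ u, ⟪x, u⟫ ≤ sw K u)
    {K : Set (E n)} (hK : Body K) (T : E n ≃L[ℝ] E n) (a : E n) :
    vol (projBody ((fun x => a + T x) '' K)) = dt T ^ (n - 1) * vol (projBody K) := by
  have hd : LinearMap.det ((back T : E n →L[ℝ] E n) : E n →ₗ[ℝ] E n) ≠ 0 := by
    rw [← abs_pos, det_back]
    have := dt_pos T
    positivity
  unfold vol
  rw [projBody_image hmem hK, Measure.addHaar_preimage_continuousLinearMap volume hd,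
    ENNReal.toReal_mul, ENNReal.toReal_ofReal (abs_nonneg _), abs_inv, det_back, dt_pow]

theorem vol_image (T : E n ≃L[ℝ] E n) (a : E n) (S : Set (E n)) :
    vol ((fun x => a + T x) '' S) = dt T * vol S := by
  unfold vol
  rw [volume_image, ENNReal.toReal_mul, ENNReal.toReal_ofReal (dt_pos T).le]

end AffE

end P237
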