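import Vale.Agent.P237.GammaRow

open MeasureTheory Set Real

namespace P237

namespace Gam

theorem W_mul (n : ℕ) : (n + 1) * (W (n + 1) * W n) = 2 * π := by
  induction n with
  | zero => rw [W_one, W_zero]; norm_num
  | succ n ih =>
    have h := W_succ n
    push_cast
    calc ((n : ℝ) + 1 + 1) * (W (n + 1 + 1) * W (n + 1))
        = ((n + 2) * W (n + 2)) * W (n + 1) := by ring_nf
      _ = (n + 1) * (W (n + 1) * W n) := by rw [h]; ring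
      _ = 2 * π := ih

theorem W_sq_le (n : ℕ) : W (n + 1) ^ 2 ≤ 2 * π / (n + 1) := by
  rw [le_div_iff₀ (by positivity), ← W_mul n]
  have h1 := W_anti n
  have h2 := W_pos (n + 1)
  have h3 : W (n + 1) * W (n + 1) ≤ W (n + 1) * W n := by gcongr
  have h4 : (0 : ℝ) ≤ n + 1 := by positivity
  nlinarith

theorem sq_ratio (m : ℕ) :
    W (m + 1) ^ 2 ≤ (1 + 1 / (m + 1 : ℝ)) * W (m + 1 + 1) ^ 2 := by
  have hW' := W_pos (m + 1 + 1)
  have h1 := W_cs m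
  have h2 := W_succ m
  have h3 : W m = (m + 2) / (m + 1) * W (m + 2) := by
    field_simp
    linarith
  rw [h3] at h1
  refine h1.trans (le_of_eq ?_)
  rw [show m + 1 + 1 = m + 2 from rfl]
  field_simp
  ring

theorem exp_bd (m : ℕ) : (1 + 1 / (m + 1 : ℝ)) ^ m ≤ 2.7182818286 := by
  have h1 : (1 + 1 / (m + 1 : ℝ)) ^ m ≤ exp 1 := by
    have h2 : 1 + 1 / (m + 1 : ℝ) ≤ exp (1 / (m + 1)) := by
      have := add_one_le_exp (1 / (m + 1 : ℝ))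
      linarith
    calc (1 + 1 / (m + 1 : ℝ)) ^ m ≤ exp (1 / (m + 1)) ^ m := by gcongr
      _ = exp (m * (1 / (m + 1))) := by rw [← exp_nat_mul]
      _ ≤ exp 1 := by
        apply exp_le_exp.2
        rw [mul_one_div, div_le_one (by positivity)]
        linarith
  exact h1.trans exp_one_lt_d9.le

theorem key2 (m : ℕ) (hm : 2 ≤ m) :
    W (m + 1) ^ (m + 1) * √((m : ℝ) + 2) ^ (m + 1)
      ≤ 8 * W (m + 1 + 1) ^ m * √((m : ℝ) + 1) ^ m := by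
  have hW := W_pos (m + 1)
  have hW' := W_pos (m + 1 + 1)
  have hr := sq_ratio m
  have he := exp_bd m
  have hs1 : √((m : ℝ) + 2) ^ 2 = m + 2 := sq_sqrt (by positivity)
  have hs2 : √((m : ℝ) + 1) ^ 2 = m + 1 := sq_sqrt (by positivity)
  have hm2 : (2 : ℝ) ≤ m := by exact_mod_cast hm
  have h4 : W (m + 1) ^ 2 * (m + 2) ≤ 8.4 := by
    have h5 := W_sq_le m
    have h6 := pi_lt_d2
    have h7 : W (m + 1) ^ 2 * (m + 2) ≤ 2 * π / (m + 1) * (m + 2) := by gcongr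
    refine h7.trans ?_
    rw [div_mul_eq_mul_div, div_le_iff₀ (by positivity)]
    nlinarith
  have he2 : ((1 + 1 / (m + 1 : ℝ)) ^ m) ^ 2 ≤ 7.3891 := by
    have : 0 ≤ (1 + 1 / (m + 1 : ℝ)) ^ m := by positivity
    nlinarith
  have hsq : (W (m + 1) ^ (m + 1) * √((m : ℝ) + 2) ^ (m + 1)) ^ 2
      ≤ (8 * W (m + 1 + 1) ^ m * √((m : ℝ) + 1) ^ m) ^ 2 := by
    have e1 : ((m : ℝ) + 2) ^ m = (1 + 1 / (m + 1 : ℝ)) ^ m * (m + 1) ^ m := by
      rw [← mul_pow]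
      congr 1
      field_simp
      ring
    calc (W (m + 1) ^ (m + 1) * √((m : ℝ) + 2) ^ (m + 1)) ^ 2
        = W (m + 1) ^ 2 * (W (m + 1) ^ 2) ^ m * (√((m : ℝ) + 2) ^ 2) ^ (m + 1) := by ring
      _ = W (m + 1) ^ 2 * (W (m + 1) ^ 2) ^ m * ((m : ℝ) + 2) ^ (m + 1) := by rw [hs1]
      _ ≤ W (m + 1) ^ 2 * ((1 + 1 / (m + 1 : ℝ)) * W (m + 1 + 1) ^ 2) ^ m
            * ((m : ℝ) + 2) ^ (m + 1) := by gcongr
      _ = (W (m + 1) ^ 2 * (m + 2)) * ((1 + 1 / (m + 1 : ℝ)) ^ m)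
            * (W (m + 1 + 1) ^ 2) ^ m * ((m : ℝ) + 2) ^ m := by
          rw [mul_pow]; ring
      _ = (W (m + 1) ^ 2 * (m + 2)) * ((1 + 1 / (m + 1 : ℝ)) ^ m) ^ 2
            * ((W (m + 1 + 1) ^ 2) ^ m * ((m : ℝ) + 1) ^ m) := by
          rw [e1]; ring
      _ ≤ 8.4 * 7.3891 * ((W (m + 1 + 1) ^ 2) ^ m * ((m : ℝ) + 1) ^ m) := by gcongr
      _ ≤ 64 * ((W (m + 1 + 1) ^ 2) ^ m * ((m : ℝ) + 1) ^ m) := by
          gcongr
          norm_num
      _ = 64 * ((W (m + 1 + 1) ^ 2) ^ m * (√((m : ℝ) + 1) ^ 2) ^ m) := by rw [hs2]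
      _ = (8 * W (m + 1 + 1) ^ m * √((m : ℝ) + 1) ^ m) ^ 2 := by ring
  exact (pow_le_pow_iff_left₀ (by positivity) (by positivity) two_ne_zero).1 hsq

end Gam

open Gam in
/-- `κ_(n-1)^n < 2^n (4 / √n)^(n-1) κ_n^(n-2)` for `n ≥ 3`, without division -/
theorem kappa_asy' (n : ℕ) (hn : 3 ≤ n) :
    kappa (n - 1) ^ n * √(n : ℝ) ^ (n - 1) < 2 ^ n * 4 ^ (n - 1) * kappa n ^ (n - 2) := by
  induction n, hn using Nat.le_induction with
  | base =>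
    have h := kappa_lt 3 le_rfl
    norm_num at h ⊢
    have h0 := kappa_pos 3
    nlinarith
  | succ n hn ih =>
    obtain ⟨m, rfl⟩ : ∃ m, n = m + 2 := ⟨n - 2, by omega⟩
    have e1 : m + 2 - 1 = m + 1 := by omega
    have e2 : m + 2 - 2 = m := by omega
    have e3 : m + 2 + 1 - 1 = m + 2 := by omega
    have e4 : m + 2 + 1 - 2 = m + 1 := by omega
    rw [e1, e2] at ih
    rw [e3, e4]
    have hk := key2 (m + 1) (by omega)
    push_cast at hk ih ⊢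
    rw [show (m : ℝ) + 1 + 2 = m + 3 by ring, show (m : ℝ) + 1 + 1 = m + 2 by ring] at hk
    rw [show (m : ℝ) + 2 + 1 = m + 3 by ring]
    have ha := kappa_pos (m + 1)
    have hb := kappa_pos (m + 2)
    have hW := W_pos (m + 2)
    have hba : kappa (m + 2) = kappa (m + 1) * W (m + 2) := kappa_W (m + 1)
    have hcb : kappa (m + 2 + 1) = kappa (m + 2) * W (m + 2 + 1) := kappa_W (m + 2)
    have hs : 0 < √((m : ℝ) + 2) := sqrt_pos.2 (by positivity)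
    have hs' : 0 < √((m : ℝ) + 3) := sqrt_pos.2 (by positivity)
    have hk' : W (m + 2) ^ (m + 2) * √((m : ℝ) + 3) ^ (m + 2)
        ≤ 8 * W (m + 2 + 1) ^ (m + 1) * √((m : ℝ) + 2) ^ (m + 1) := hk
    have hmul : (kappa (m + 2) ^ (m + 2 + 1) * √((m : ℝ) + 3) ^ (m + 2))
          * √((m : ℝ) + 2) ^ (m + 1)
        < (2 ^ (m + 2 + 1) * 4 ^ (m + 2) * kappa (m + 2 + 1) ^ (m + 1))
          * √((m : ℝ) + 2) ^ (m + 1) := by
      calc (kappa (m + 2) ^ (m + 2 + 1) * √((m : ℝ) + 3) ^ (m + 2)) * √((m : ℝ) + 2) ^ (m + 1)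
          = kappa (m + 2) * kappa (m + 2) ^ (m + 2) * √((m : ℝ) + 3) ^ (m + 2)
            * √((m : ℝ) + 2) ^ (m + 1) := by ring
        _ = kappa (m + 2) * (kappa (m + 1) * W (m + 2)) ^ (m + 2) * √((m : ℝ) + 3) ^ (m + 2)
            * √((m : ℝ) + 2) ^ (m + 1) := by rw [← hba]
        _ = kappa (m + 2) * (kappa (m + 1) ^ (m + 2) * √((m : ℝ) + 2) ^ (m + 1))
            * (W (m + 2) ^ (m + 2) * √((m : ℝ) + 3) ^ (m + 2)) := by rw [mul_pow]; ring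
        _ < kappa (m + 2) * (2 ^ (m + 2) * 4 ^ (m + 1) * kappa (m + 2) ^ m)
            * (W (m + 2) ^ (m + 2) * √((m : ℝ) + 3) ^ (m + 2)) := by gcongr
        _ ≤ kappa (m + 2) * (2 ^ (m + 2) * 4 ^ (m + 1) * kappa (m + 2) ^ m)
            * (8 * W (m + 2 + 1) ^ (m + 1) * √((m : ℝ) + 2) ^ (m + 1)) := by gcongr
        _ = (2 ^ (m + 2 + 1) * 4 ^ (m + 2) * (kappa (m + 2) * W (m + 2 + 1)) ^ (m + 1))
            * √((m : ℝ) + 2) ^ (m + 1) := by ring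
        _ = (2 ^ (m + 2 + 1) * 4 ^ (m + 2) * kappa (m + 2 + 1) ^ (m + 1))
            * √((m : ℝ) + 2) ^ (m + 1) := by rw [← hcb]
    exact lt_of_mul_lt_mul_right hmul (by positivity)

/-- `κ_(n-1)^n < 2^n (4 / √n)^(n-1) κ_n^(n-2)` for `n ≥ 3` -/
theorem kappa_asy (n : ℕ) (hn : 3 ≤ n) :
    kappa (n - 1) ^ n < 2 ^ n * (4 / √(n : ℝ)) ^ (n - 1) * kappa n ^ (n - 2) := by
  have h := kappa_asy' n hn
  have hs : 0 < √(n : ℝ) := sqrt_pos.2 (by positivity)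
  rw [div_pow, mul_div_assoc', div_mul_eq_mul_div, lt_div_iff₀ (by positivity)]
  exact h

end P237
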