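import Vale.Agent.P237.Final

open MeasureTheory Set
open scoped Pointwise RealInnerProductSpace

namespace P237

/-- The smallest class of bodies which contains all convex bodies of dimension one and two and all
Euclidean balls, and is closed under direct products, pyramids and invertible affine maps. -/
inductive Ext : (n : ℕ) → Set (E n) → Prop
  | one {K : Set (E 1)} : Body K → Ext 1 K
  | two {K : Set (E 2)} : Body K → Ext 2 K
  | ball (n : ℕ) : 1 ≤ n → Ext n {x : E n | ‖x‖ ≤ 1}
  | prod {m n : ℕ} {K : Set (E m)} {L : Set (E n)} : Ext m K → Ext n L →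
      Ext (m + n) (cat K L)
  | pyramid {n : ℕ} {K : Set (E n)} : Ext n K → Ext (n + 1) (cone K)
  | affine {n : ℕ} {K : Set (E n)} (f : E n → E n) : IsAffineIso f → Ext n K →
      Ext n (f '' K)

theorem ball_eq (n : ℕ) : {x : E n | ‖x‖ ≤ 1} = Metric.closedBall (0 : E n) 1 := by
  ext x
  simp

theorem body_ball (n : ℕ) : Body (Metric.closedBall (0 : E n) 1) := by
  refine ⟨convex_closedBall _ _, isCompact_closedBall _ _, ⟨0, ?_⟩⟩
  exact Metric.ball_subset_interior_closedBall (Metric.mem_ball_self one_pos)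

theorem shadow_ball {n : ℕ} (u : E n) (hu : ‖u‖ = 1) :
    kappa (n - 1) ≤ shadow (Metric.closedBall (0 : E n) 1) u := by
  have hu0 : u ≠ 0 := by
    intro h
    rw [h, norm_zero] at hu
    exact one_ne_zero hu.symm
  have hn : 0 < n := by
    rcases Nat.eq_zero_or_pos n with h | h
    · subst h
      exact absurd (Subsingleton.elim u 0) hu0
    · exact h
  have hr : Module.finrank ℝ ((ℝ ∙ u)ᗮ : Submodule ℝ (E n)) = n - 1 := by
    have h1 := Submodule.finrank_add_finrank_orthogonal (ℝ ∙ u : Submodule ℝ (E n))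
    rw [finrank_span_singleton hu0, finrank_euclideanSpace_fin] at h1
    omega
  let b := (stdOrthonormalBasis ℝ ((ℝ ∙ u)ᗮ : Submodule ℝ (E n))).reindex (finCongr hr)
  let e : ((ℝ ∙ u)ᗮ : Submodule ℝ (E n)) ≃ₗᵢ[ℝ] E (n - 1) := b.repr
  have h1 : volume (Metric.closedBall (0 : ((ℝ ∙ u)ᗮ : Submodule ℝ (E n))) 1) =
      volume (Metric.closedBall (0 : E (n - 1)) 1) := by
    have h2 := e.measurePreserving.measure_preimage
      (Metric.isClosed_closedBall (x := (0 : E (n - 1))) (ε := 1)).measurableSet.nullMeasurableSet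
    rw [← h2]
    congr 1
    ext x
    simp
  rw [kappa, vol, ← h1, shadow]
  refine ENNReal.toReal_mono ?_ (measure_mono ?_)
  · exact ((isCompact_closedBall _ _).image (ContinuousLinearMap.continuous _)).measure_lt_top.ne
  · intro y hy
    refine ⟨(y : E n), ?_, Submodule.orthogonalProjectionOnto_mem_subspace_eq_self y⟩
    simpa using hy

theorem petty_ball {n : ℕ} (hn : 1 ≤ n) :
    petty n * vol (Metric.closedBall (0 : E n) 1) ^ (n - 1) ≤
      vol (projBody (Metric.closedBall (0 : E n) 1)) := by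
  have hk := kappa_pos n
  have hk' := kappa_pos (n - 1)
  have h1 : kappa (n - 1) • Metric.closedBall (0 : E n) 1 ⊆
      projBody (Metric.closedBall (0 : E n) 1) := by
    rintro _ ⟨y, hy, rfl⟩ u hu
    rw [mem_closedBall_zero_iff] at hy
    have h2 : ⟪y, u⟫ ≤ 1 := by
      refine (real_inner_le_norm y u).trans ?_
      rw [hu, mul_one]
      exact hy
    show ⟪kappa (n - 1) • y, u⟫ ≤ _
    rw [real_inner_smul_left]
    refine le_trans ?_ (shadow_ball u hu)
    nlinarith
  have h3 := vol_mono (projBody_compact (body_ball n)) h1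
  rw [vol_smul _ hk'.le] at h3
  refine le_trans (le_of_eq ?_) h3
  have e : kappa n ^ (2 - (n : ℤ)) * kappa n ^ (n - 1) = kappa n := by
    rw [← zpow_natCast, ← zpow_add₀ hk.ne']
    have : (2 - (n : ℤ)) + ((n - 1 : ℕ) : ℤ) = 1 := by
      push_cast [hn]
      ring
    rw [this, zpow_one]
  show petty n * kappa n ^ (n - 1) = kappa (n - 1) ^ n * kappa n
  rw [petty, mul_assoc, e]

theorem petty_two : petty 2 = 4 := by
  have h1 : kappa 1 = 2 := by
    have h0 : kappa 0 = 1 := by rw [Gam.kappa_eq]; simp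
    have := Gam.kappa_W 0
    rw [h0, Gam.W_one] at this
    simpa using this
  rw [petty]
  norm_num
  rw [h1]
  norm_num

theorem ext_petty {n : ℕ} {K : Set (E n)} (h : Ext n K) :
    Body K ∧ 1 ≤ n ∧ petty n * vol K ^ (n - 1) ≤ vol (projBody K) := by
  induction h with
  | one hK =>
    refine ⟨hK, le_rfl, ?_⟩
    have := one_bound hK
    rw [petty_one]
    simpa using this
  | two hK =>
    refine ⟨hK, by norm_num, ?_⟩
    have := plane hK
    rw [petty_two]
    norm_num at this ⊢
    exact this
  | ball n hn =>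
    rw [ball_eq]
    exact ⟨body_ball n, hn, petty_ball hn⟩
  | @prod m n K L _ _ ihK ihL =>
    obtain ⟨hK, hm, hK2⟩ := ihK
    obtain ⟨hL, hn, hL2⟩ := ihL
    refine ⟨cat_body hK hL, by omega, ?_⟩
    by_cases h3 : 3 ≤ m + n
    · exact (petty_cat hm hn h3 hK hL hK2 hL2).le
    · have em : m = 1 := by omega
      have en : n = 1 := by omega
      subst em en
      have := plane (cat_body hK hL)
      show petty 2 * vol (cat K L) ^ (2 - 1) ≤ _
      rw [petty_two]
      norm_num at this ⊢
      exact this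
  | @pyramid n K _ ih =>
    obtain ⟨hK, hn, hK2⟩ := ih
    refine ⟨cone_body hK, by omega, ?_⟩
    by_cases h3 : 2 ≤ n
    · exact (petty_cone h3 hK hK2).le
    · have en : n = 1 := by omega
      subst en
      have := plane (cone_body hK)
      show petty 2 * vol (cone K) ^ (2 - 1) ≤ _
      rw [petty_two]
      norm_num at this ⊢
      exact this
  | @affine n K f hf _ ih =>
    obtain ⟨T, a, hT⟩ := hf
    have hfe : f = fun x => a + T x := funext hT
    subst hfe
    obtain ⟨hK, hn, hK2⟩ := ih
    refine ⟨AffE.body_image hK T a, hn, ?_⟩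
    rw [AffE.vol_projBody_image (fun K hK x => mem_iff hK x) hK T a, AffE.vol_image, mul_pow]
    have := AffE.dt_pos T
    calc petty n * (AffE.dt T ^ (n - 1) * vol K ^ (n - 1))
        = AffE.dt T ^ (n - 1) * (petty n * vol K ^ (n - 1)) := by ring
      _ ≤ _ := by gcongr

theorem ext_pettyLe {n : ℕ} {K : Set (E n)} (h : Ext n K) : Body K ∧ PettyLe K := by
  refine ⟨(ext_petty h).1, ?_⟩
  rw [PettyLe, pettyConst_eq]
  exact (ext_petty h).2.2

end P237
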