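import Vale.Agent.P237.Defs

/-!
# P237, row CAT: Euclidean `(m+n)`-space as a product
-/

open MeasureTheory Set
open scoped Pointwise RealInnerProductSpace

namespace P237

theorem inner_fst_snd {m n : ℕ} (x y : E (m + n)) :
    ⟪x, y⟫ = ⟪fst x, fst y⟫ + ⟪snd x, snd y⟫ := by
  simp only [PiLp.inner_apply, Fin.sum_univ_add, fst, snd]

theorem fst_add {m n : ℕ} (x y : E (m + n)) : fst (x + y) = fst x + fst y := rfl

theorem snd_add {m n : ℕ} (x y : E (m + n)) : snd (x + y) = snd x + snd y := rfl

theorem fst_smul {m n : ℕ} (c : ℝ) (x : E (m + n)) : fst (c • x) = c • fst x := rfl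

theorem snd_smul {m n : ℕ} (c : ℝ) (x : E (m + n)) : snd (c • x) = c • snd x := rfl

/-- Glue two vectors. -/
def glue {m n : ℕ} (a : E m) (b : E n) : E (m + n) :=
  WithLp.toLp 2 (Fin.append (fun i => a i) (fun i => b i))

@[simp] theorem fst_glue {m n : ℕ} (a : E m) (b : E n) : fst (glue a b) = a := by
  ext i
  simp [fst, glue]

@[simp] theorem snd_glue {m n : ℕ} (a : E m) (b : E n) : snd (glue a b) = b := by
  ext i
  simp [snd, glue]

theorem glue_fst_snd {m n : ℕ} (x : E (m + n)) : glue (fst x) (snd x) = x := by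
  ext i
  refine Fin.addCases (fun j => ?_) (fun j => ?_) i <;> simp [fst, snd, glue]

/-- Euclidean `(m+n)`-space is the product of Euclidean spaces, as a linear equivalence. -/
def catA (m n : ℕ) : E (m + n) ≃ₗ[ℝ] E m × E n where
  toFun x := (fst x, snd x)
  invFun p := glue p.1 p.2
  map_add' _ _ := rfl
  map_smul' _ _ := rfl
  left_inv x := glue_fst_snd x
  right_inv p := by simp

/-- Euclidean `(m+n)`-space is the product of Euclidean spaces. -/
noncomputable def catL (m n : ℕ) : E (m + n) ≃L[ℝ] E m × E n :=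
  (catA m n).toContinuousLinearEquiv

@[simp] theorem catL_apply {m n : ℕ} (x : E (m + n)) : catL m n x = (fst x, snd x) := rfl

@[simp] theorem catL_symm_apply {m n : ℕ} (p : E m × E n) :
    (catL m n).symm p = glue p.1 p.2 := rfl

/-- The isometric version. -/
noncomputable def catI (m n : ℕ) : E (m + n) ≃ₗᵢ[ℝ] WithLp 2 (E m × E n) where
  toLinearEquiv := (catA m n).trans (WithLp.linearEquiv 2 ℝ (E m × E n)).symm
  norm_map' x := by
    rw [← sq_eq_sq₀ (norm_nonneg _) (norm_nonneg _), WithLp.prod_norm_sq_eq_of_L2]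
    have h := inner_fst_snd x x
    simp only [real_inner_self_eq_norm_sq] at h
    exact h.symm

theorem cat_mp (m n : ℕ) : MeasurePreserving (fun x : E (m + n) => (fst x, snd x)) volume
    (volume.prod volume) :=
  (WithLp.volume_preserving_ofLp (E m) (E n)).comp (catI m n).measurePreserving

theorem catL_mp (m n : ℕ) : MeasurePreserving (catL m n) volume (volume.prod volume) :=
  cat_mp m n

theorem cat_eq {m n : ℕ} (K : Set (E m)) (L : Set (E n)) : cat K L = catL m n ⁻¹' (K ×ˢ L) := rfl

theorem cat_volume {m n : ℕ} (K : Set (E m)) (L : Set (E n)) :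
    volume (cat K L) = volume K * volume L := by
  have h : MeasurePreserving (catL m n).toHomeomorph.toMeasurableEquiv volume
    (volume.prod volume) := cat_mp m n
  rw [cat_eq]
  have := h.measure_preimage_equiv (K ×ˢ L)
  rw [← Measure.prod_prod]
  exact this

theorem cat_vol {m n : ℕ} (K : Set (E m)) (L : Set (E n)) : vol (cat K L) = vol K * vol L := by
  unfold vol
  rw [cat_volume, ENNReal.toReal_mul]

theorem cat_convex {m n : ℕ} {K : Set (E m)} {L : Set (E n)} (hK : Convex ℝ K)
    (hL : Convex ℝ L) : Convex ℝ (cat K L) := by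
  rw [cat_eq]
  exact (hK.prod hL).linear_preimage (catA m n).toLinearMap

theorem cat_compact {m n : ℕ} {K : Set (E m)} {L : Set (E n)} (hK : IsCompact K)
    (hL : IsCompact L) : IsCompact (cat K L) := by
  rw [cat_eq]
  exact (catL m n).toHomeomorph.isCompact_preimage.2 (hK.prod hL)

theorem cat_body {m n : ℕ} {K : Set (E m)} {L : Set (E n)} (hK : Body K) (hL : Body L) :
    Body (cat K L) := by
  refine ⟨cat_convex hK.convex hL.convex, cat_compact hK.compact hL.compact, ?_⟩
  rw [cat_eq]
  have h := (catL m n).toHomeomorph.preimage_interior (K ×ˢ L)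
  have h2 : ((catL m n).toHomeomorph : E (m + n) → E m × E n) = catL m n := rfl
  rw [h2] at h
  rw [← h, interior_prod_eq]
  obtain ⟨a, ha⟩ := hK.int
  obtain ⟨b, hb⟩ := hL.int
  exact ⟨glue a b, by simp [ha, hb]⟩

end P237
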