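import Vale.Agent.P237.Slice

/-!
# P237, row C1: the cone is a convex body of volume `|L| / (d + 1)`
-/

open MeasureTheory Set
open scoped Pointwise RealInnerProductSpace

namespace P237

theorem mem_cone {d : ℕ} {L : Set (E d)} {x : E (d + 1)} :
    x ∈ cone L ↔ 0 ≤ ht x ∧ ht x ≤ 1 ∧ (fst x : E d) ∈ (1 - ht x) • L := Iff.rfl

theorem cone_convex {d : ℕ} {L : Set (E d)} (hL : Convex ℝ L) : Convex ℝ (cone L) := by
  rintro x ⟨h1, h2, h3⟩ y ⟨k1, k2, k3⟩ a b ha hb hab
  refine ⟨?_, ?_, ?_⟩
  · rw [Cone4.ht_add, Cone4.ht_smul, Cone4.ht_smul]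
    positivity
  · rw [Cone4.ht_add, Cone4.ht_smul, Cone4.ht_smul]
    nlinarith
  · have e : 1 - ht (a • x + b • y) = a * (1 - ht x) + b * (1 - ht y) := by
      rw [Cone4.ht_add, Cone4.ht_smul, Cone4.ht_smul]
      linear_combination (-1 : ℝ) * hab
    rw [e, hL.add_smul (mul_nonneg ha (by linarith)) (mul_nonneg hb (by linarith)), fst_add,
      fst_smul, fst_smul, mul_smul, mul_smul]
    exact add_mem_add (smul_mem_smul_set h3) (smul_mem_smul_set k3)

theorem cone_eq_image {d : ℕ} (L : Set (E d)) :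
    cone L = (fun p : E d × ℝ => pad ((1 - p.2) • p.1) p.2) '' (L ×ˢ Icc 0 1) := by
  ext x
  constructor
  · rintro ⟨h1, h2, l, hl, h3⟩
    refine ⟨(l, ht x), ⟨hl, h1, h2⟩, ?_⟩
    have h3' : (1 - ht x) • l = (fst x : E d) := h3
    show pad ((1 - ht x) • l) (ht x) = x
    rw [h3', pad_fst_ht]
  · rintro ⟨⟨l, t⟩, ⟨hl, h1, h2⟩, rfl⟩
    refine ⟨?_, ?_, ?_⟩
    · rw [ht_pad]; exact h1
    · rw [ht_pad]; exact h2
    · rw [ht_pad, fst_pad]
      exact smul_mem_smul_set hl

theorem cone_compact {d : ℕ} {L : Set (E d)} (hL : IsCompact L) : IsCompact (cone L) := by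
  rw [cone_eq_image]
  refine (hL.prod isCompact_Icc).image ?_
  exact continuous_pad.comp (by fun_prop : Continuous fun p : E d × ℝ => ((1 - p.2) • p.1, p.2))

theorem cone_slice {d : ℕ} (L : Set (E d)) {t : ℝ} (ht' : t ∈ Icc (0 : ℝ) 1) :
    {x : E d | pad x t ∈ cone L} = (1 - t) • L := by
  ext x
  simp only [mem_ofPred_eq, mem_cone, ht_pad, fst_pad, ht'.1, ht'.2, true_and]

theorem cone_slice_empty {d : ℕ} (L : Set (E d)) {t : ℝ} (ht' : t ∉ Icc (0 : ℝ) 1) :
    {x : E d | pad x t ∈ cone L} = ∅ := by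
  ext x
  simp only [mem_ofPred_eq, mem_cone, ht_pad, mem_empty_iff_false, iff_false]
  exact fun h => ht' ⟨h.1, h.2.1⟩

theorem cone_volume {d : ℕ} {L : Set (E d)} (hL : IsCompact L) :
    volume (cone L) = ENNReal.ofReal (1 / (d + 1)) * volume L := by
  rw [slice (cone_compact hL).isClosed.measurableSet]
  have h1 : (fun t : ℝ => volume {x : E d | pad x t ∈ cone L}) =
      (Icc (0 : ℝ) 1).indicator fun t => ENNReal.ofReal ((1 - t) ^ d) * volume L := by
    funext t
    by_cases h : t ∈ Icc (0 : ℝ) 1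
    · rw [indicator_of_mem h, cone_slice L h, Measure.addHaar_smul, finrank_euclideanSpace_fin,
        abs_of_nonneg (pow_nonneg (by linarith [h.2]) _)]
    · rw [indicator_of_notMem h, cone_slice_empty L h, measure_empty]
  rw [h1, lintegral_indicator measurableSet_Icc, lintegral_mul_const _ (by fun_prop), lint_pow]

theorem cone_vol {d : ℕ} {L : Set (E d)} (hL : Body L) : vol (cone L) = vol L / (d + 1) := by
  unfold vol
  rw [cone_volume hL.compact, ENNReal.toReal_mul, ENNReal.toReal_ofReal (by positivity)]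
  ring

theorem body_pos {d : ℕ} {L : Set (E d)} (hL : Body L) : 0 < volume L :=
  (isOpen_interior.measure_pos volume hL.int).trans_le (measure_mono interior_subset)

theorem cone_body {d : ℕ} {L : Set (E d)} (hL : Body L) : Body (cone L) := by
  refine ⟨cone_convex hL.convex, cone_compact hL.compact, ?_⟩
  by_contra h
  rw [not_nonempty_iff_eq_empty] at h
  have h1 : volume (cone L) = 0 := by
    have h2 := (cone_convex hL.convex).addHaar_frontier (volume : Measure (E (d + 1)))
    rw [(cone_compact hL.compact).isClosed.frontier_eq, h, sdiff_empty] at h2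
    exact h2
  rw [cone_volume hL.compact, mul_eq_zero, ENNReal.ofReal_eq_zero] at h1
  rcases h1 with h1 | h1
  · have : (0 : ℝ) < 1 / (d + 1) := by positivity
    linarith
  · exact (body_pos hL).ne' h1

end P237
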