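import Mathlib

open MeasureTheory Set
open scoped Pointwise RealInnerProductSpace

namespace P237

/-- Euclidean `n`-space. -/
abbrev E (n : ℕ) := EuclideanSpace ℝ (Fin n)

/-- Convex bodies: compact convex sets with nonempty interior. -/
structure Body {n : ℕ} (K : Set (E n)) : Prop where
  convex : Convex ℝ K
  compact : IsCompact K
  int : (interior K).Nonempty

/-- The `(n-1)`-dimensional volume of the orthogonal projection of `K` to the hyperplane
orthogonal to `u`. -/
noncomputable def shadow {n : ℕ} (K : Set (E n)) (u : E n) : ℝ :=
  (volume ((ℝ ∙ u)ᗮ.orthogonalProjectionOnto '' K)).toReal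

/-- The projection body: the convex body with support function `shadow K` on the unit sphere. -/
def projBody {n : ℕ} (K : Set (E n)) : Set (E n) :=
  {x | ∀ u : E n, ‖u‖ = 1 → ⟪x, u⟫ ≤ shadow K u}

/-- Volume as a real number. -/
noncomputable def vol {n : ℕ} (K : Set (E n)) : ℝ := (volume K).toReal

/-- Volume of the Euclidean unit ball of dimension `n`. -/
noncomputable def kappa (n : ℕ) : ℝ := vol (Metric.closedBall (0 : E n) 1)

/-- First `m` coordinates. -/
def fst {m n : ℕ} (x : E (m + n)) : E m := WithLp.toLp 2 fun i => x (Fin.castAdd n i)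

/-- Last `n` coordinates. -/
def snd {m n : ℕ} (x : E (m + n)) : E n := WithLp.toLp 2 fun i => x (Fin.natAdd m i)

/-- The direct product of `K` and `L`, as a subset of Euclidean `(m+n)`-space. -/
def cat {m n : ℕ} (K : Set (E m)) (L : Set (E n)) : Set (E (m + n)) :=
  {x | fst x ∈ K ∧ snd x ∈ L}

/-- The swept set of `K` along the segment from `0` to `u` (any finite-dimensional space). -/
noncomputable def sw {V : Type*} [AddCommGroup V] [Module ℝ V] [MeasureSpace V] (K : Set V) (u : V) : ℝ :=
  (volume (K + segment ℝ 0 u)).toReal - (volume K).toReal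

/-- Affine images of direct products of convex bodies of dimension one and two. -/
inductive Block : (n : ℕ) → Set (E n) → Prop
  | one {K : Set (E 1)} : Body K → Block 1 K
  | two {K : Set (E 2)} : Body K → Block 2 K
  | prod {m n : ℕ} {K : Set (E m)} {L : Set (E n)} : Block m K → Block n L →
      Block (m + n) (cat K L)
  | affine {n : ℕ} {K : Set (E n)} (T : E n ≃L[ℝ] E n) (a : E n) : Block n K →
      Block n ((fun x => a + T x) '' K)

end P237
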