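import Mathlib
import Vale.Agent.P237.Defs

open MeasureTheory Set
open scoped Pointwise RealInnerProductSpace

namespace P237

/-- Height: the last coordinate. -/
def ht {d : ℕ} (x : E (d + 1)) : ℝ := x (Fin.last d)

/-- The pyramid (cone) with base `L` in height zero and apex at height one. -/
def cone {d : ℕ} (L : Set (E d)) : Set (E (d + 1)) :=
  {x | 0 ≤ ht x ∧ ht x ≤ 1 ∧ fst x ∈ (1 - ht x) • L}

/-- The vector with first coordinates `u` and height `t`. -/
def pad {d : ℕ} (u : E d) (t : ℝ) : E (d + 1) := WithLp.toLp 2 (Fin.snoc (fun i => u i) t)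

theorem ht_pad {d : ℕ} (u : E d) (t : ℝ) : ht (pad u t) = t := by
  simp [ht, pad]

theorem fst_pad {d : ℕ} (u : E d) (t : ℝ) : fst (pad u t) = u := by
  ext i
  have h : Fin.castAdd 1 i = Fin.castSucc i := rfl
  simp [fst, pad, h]

end P237
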