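import Mathlib
import Vale.Agent.P237.Defs

open MeasureTheory Set
open scoped Pointwise RealInnerProductSpace

set_option linter.unusedSectionVars false

namespace P237

variable {V : Type*} [NormedAddCommGroup V] [InnerProductSpace ℝ V] [FiniteDimensional ℝ V]
  [MeasurableSpace V] [BorelSpace V]

/-- the decomposition along a unit vector -/
noncomputable def dec (u : V) (p : ℝ × ((ℝ ∙ u)ᗮ : Submodule ℝ V)) : V := p.1 • u + (p.2 : V)

theorem dec_mp (u : V) (hu : ‖u‖ = 1) :
    MeasurePreserving (dec u) ((volume : Measure ℝ).prod volume) volume := by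
  have h1 : MeasurePreserving (LinearIsometryEquiv.toSpanUnitSingleton (𝕜 := ℝ) u hu)
      volume volume := LinearIsometryEquiv.measurePreserving _
  have h2 : MeasurePreserving (Prod.map (LinearIsometryEquiv.toSpanUnitSingleton (𝕜 := ℝ) u hu)
      (id : ((ℝ ∙ u)ᗮ : Submodule ℝ V) → ((ℝ ∙ u)ᗮ : Submodule ℝ V)))
      ((volume : Measure ℝ).prod volume)
      ((volume : Measure (ℝ ∙ u : Submodule ℝ V)).prod volume) :=
    h1.prod (MeasurePreserving.id _)
  have h3 := WithLp.volume_preserving_toLp (ℝ ∙ u : Submodule ℝ V) ((ℝ ∙ u)ᗮ : Submodule ℝ V)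
  have h4 : MeasurePreserving ((ℝ ∙ u : Submodule ℝ V).orthogonalDecomposition.symm) volume volume :=
    LinearIsometryEquiv.measurePreserving _
  have h5 := (h4.comp h3).comp h2
  have h6 : dec u = (((ℝ ∙ u : Submodule ℝ V).orthogonalDecomposition.symm ∘
      (WithLp.toLp 2)) ∘ (Prod.map (LinearIsometryEquiv.toSpanUnitSingleton (𝕜 := ℝ) u hu)
      (id : ((ℝ ∙ u)ᗮ : Submodule ℝ V) → ((ℝ ∙ u)ᗮ : Submodule ℝ V)))) := by
    funext p
    simp [dec, Submodule.orthogonalDecomposition_symm_apply]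
  rw [h6]
  exact h5


theorem proj_dec (u : V) (p : ℝ × ((ℝ ∙ u)ᗮ : Submodule ℝ V)) :
    (ℝ ∙ u)ᗮ.orthogonalProjectionOnto (dec u p) = p.2 := by
  have h1 : (ℝ ∙ u)ᗮ.orthogonalProjectionOnto (p.1 • u) = 0 := by
    rw [map_smul, Submodule.orthogonalProjectionOnto_orthogonalComplement_singleton_eq_zero,
      smul_zero]
  rw [dec, map_add, h1, zero_add, Submodule.orthogonalProjectionOnto_mem_subspace_eq_self]

theorem dec_proj (u : V) (hu : ‖u‖ = 1) (x : V) :
    dec u (⟪u, x⟫, (ℝ ∙ u)ᗮ.orthogonalProjectionOnto x) = x := by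
  have h := Submodule.starProjection_add_starProjection_orthogonal (K := (ℝ ∙ u)) x
  rw [Submodule.starProjection_unit_singleton ℝ hu] at h
  exact h

/-- fibre of `K` over `y` -/
def fib (u : V) (K : Set V) (y : ((ℝ ∙ u)ᗮ : Submodule ℝ V)) : Set ℝ := {t | dec u (t, y) ∈ K}

theorem vol_eq_lintegral (u : V) (hu : ‖u‖ = 1) {K : Set V} (hK : IsCompact K) :
    volume K = ∫⁻ y, volume (fib u K y) ∂(volume : Measure ((ℝ ∙ u)ᗮ : Submodule ℝ V)) := by
  rw [← (dec_mp u hu).measure_preimage hK.isClosed.measurableSet.nullMeasurableSet,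
    Measure.prod_apply_symm ((dec_mp u hu).measurable hK.isClosed.measurableSet)]
  rfl

theorem fib_icc (u : V) (hu : ‖u‖ = 1) {K : Set V} (hK : IsCompact K) (hc : Convex ℝ K)
    (y : ((ℝ ∙ u)ᗮ : Submodule ℝ V)) (hy : (fib u K y).Nonempty) :
    ∃ a b, a ≤ b ∧ fib u K y = Icc a b := by
  have hcl : IsClosed (fib u K y) := by
    apply hK.isClosed.preimage
    unfold dec
    fun_prop
  have hco : Convex ℝ (fib u K y) := by
    intro s hs t ht a b ha hb hab
    have h := hc hs ht ha hb hab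
    show dec u _ ∈ K
    have e : dec u (a • s + b • t, y) = a • dec u (s, y) + b • dec u (t, y) := by
      have e3 : (y : V) = a • (y : V) + b • (y : V) := by rw [← add_smul, hab, one_smul]
      simp only [dec, smul_add, smul_smul, smul_eq_mul, add_smul]
      nth_rewrite 1 [e3]
      abel
    rw [e]
    exact h
  have hbd : Bornology.IsBounded (fib u K y) := by
    obtain ⟨R, hR⟩ := hK.isBounded.exists_norm_le
    refine isBounded_iff_forall_norm_le.2 ⟨R + ‖(y : V)‖, fun t ht => ?_⟩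
    have h1 := hR _ ht
    have h2 : ‖t • u‖ ≤ ‖dec u (t, y)‖ + ‖(y : V)‖ := by
      have h3 : t • u = dec u (t, y) - (y : V) := by simp [dec]
      rw [h3]
      exact norm_sub_le _ _
    rw [norm_smul, hu, mul_one] at h2
    linarith
  have hcomp : IsCompact (fib u K y) := Metric.isCompact_of_isClosed_isBounded hcl hbd
  have h := eq_Icc_of_connected_compact ⟨hy, hco.isPreconnected⟩ hcomp
  refine ⟨_, _, ?_, h⟩
  rw [h] at hy
  exact nonempty_Icc.1 hy


theorem icc_add {a b s : ℝ} (hab : a ≤ b) (hs : 0 ≤ s) : Icc a b + Icc 0 s = Icc a (b + s) := by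
  ext x
  constructor
  · rintro ⟨p, hp, q, hq, rfl⟩
    exact ⟨by linarith [hp.1, hq.1], by linarith [hp.2, hq.2]⟩
  · intro hx
    refine ⟨min x b, ⟨le_min hx.1 hab, min_le_right _ _⟩, x - min x b, ⟨?_, ?_⟩, by ring⟩
    · linarith [min_le_left x b]
    · rcases min_choice x b with h | h <;> rw [h] <;> linarith [hx.2]

theorem fib_sweep (u : V) (K : Set V) {s : ℝ} (hs : 0 ≤ s)
    (y : ((ℝ ∙ u)ᗮ : Submodule ℝ V)) :
    fib u (K + segment ℝ 0 (s • u)) y = fib u K y + Icc 0 s := by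
  ext t
  constructor
  · rintro ⟨k, hk, z, hz, h⟩
    rw [segment_eq_image] at hz
    obtain ⟨r, hr, rfl⟩ := hz
    refine ⟨t - r * s, ?_, r * s, ⟨mul_nonneg hr.1 hs, by nlinarith [hr.2]⟩, by ring⟩
    show dec u _ ∈ K
    have : dec u (t - r * s, y) = k := by
      have h' : k + r • s • u = t • u + (y : V) := by simpa [dec] using h
      simp only [dec, sub_smul, mul_smul]
      rw [sub_add_eq_add_sub, ← h', add_sub_cancel_right]
    rw [this]
    exact hk
  · rintro ⟨p, hp, q, hq, rfl⟩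
    refine ⟨dec u (p, y), hp, q • u, ?_, ?_⟩
    · rw [segment_eq_image]
      rcases eq_or_lt_of_le hs with h0 | h0
      · have : q = 0 := le_antisymm (h0 ▸ hq.2) hq.1
        exact ⟨0, by simp, by simp [this]⟩
      · refine ⟨q / s, ⟨div_nonneg hq.1 hs, (div_le_one h0).2 hq.2⟩, ?_⟩
        simp [smul_smul, div_mul_cancel₀ _ h0.ne']
    · simp only [dec, add_smul]
      abel

theorem fib_nonempty_iff (u : V) (hu : ‖u‖ = 1) (K : Set V)
    (y : ((ℝ ∙ u)ᗮ : Submodule ℝ V)) :
    (fib u K y).Nonempty ↔ y ∈ (ℝ ∙ u)ᗮ.orthogonalProjectionOnto '' K := by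
  constructor
  · rintro ⟨t, ht⟩
    exact ⟨_, ht, proj_dec u _⟩
  · rintro ⟨x, hx, rfl⟩
    refine ⟨⟪u, x⟫, ?_⟩
    show dec u _ ∈ K
    rw [dec_proj u hu]
    exact hx

theorem sweep {K : Set V} (hK : IsCompact K) (hc : Convex ℝ K) (u : V) (hu : ‖u‖ = 1)
    {s : ℝ} (hs : 0 ≤ s) :
    volume (K + segment ℝ 0 (s • u)) =
      volume K + ENNReal.ofReal s * volume ((ℝ ∙ u)ᗮ.orthogonalProjectionOnto '' K) := by
  have hP : IsCompact ((ℝ ∙ u)ᗮ.orthogonalProjectionOnto '' K) :=
    hK.image (ContinuousLinearMap.continuous _)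
  have hseg : IsCompact (segment ℝ 0 (s • u)) := by
    rw [segment_eq_image]
    exact isCompact_Icc.image (by fun_prop)
  rw [vol_eq_lintegral u hu (hK.add hseg), vol_eq_lintegral u hu hK,
    ← lintegral_indicator_const hP.isClosed.measurableSet,
    ← lintegral_add_right _ (measurable_const.indicator hP.isClosed.measurableSet)]
  refine lintegral_congr fun y => ?_
  rw [fib_sweep u K hs y]
  by_cases hy : y ∈ (ℝ ∙ u)ᗮ.orthogonalProjectionOnto '' K
  · rw [indicator_of_mem hy]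
    obtain ⟨a, b, hab, h⟩ := fib_icc u hu hK hc y ((fib_nonempty_iff u hu K y).2 hy)
    rw [h, icc_add hab hs, Real.volume_Icc, Real.volume_Icc,
      ← ENNReal.ofReal_add (by linarith) hs]
    congr 1
    ring
  · rw [indicator_of_notMem hy]
    have h : fib u K y = ∅ := by
      rw [← not_nonempty_iff_eq_empty, fib_nonempty_iff u hu K y]
      exact hy
    rw [h]
    simp


theorem isCompact_seg (u : V) : IsCompact (segment ℝ 0 u) := by
  rw [segment_eq_image]
  exact isCompact_Icc.image (by fun_prop)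

theorem swept_compact {K : Set V} (hK : IsCompact K) (u : V) :
    IsCompact (K + segment ℝ 0 u) := hK.add (isCompact_seg u)

/-- real form of the sweeping formula -/
theorem sweep_real {K : Set V} (hK : IsCompact K) (hc : Convex ℝ K) (u : V) (hu : ‖u‖ = 1)
    {s : ℝ} (hs : 0 ≤ s) :
    sw K (s • u) = s * (volume ((ℝ ∙ u)ᗮ.orthogonalProjectionOnto '' K)).toReal := by
  have hP : IsCompact ((ℝ ∙ u)ᗮ.orthogonalProjectionOnto '' K) :=
    hK.image (ContinuousLinearMap.continuous _)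
  rw [sw, sweep hK hc u hu hs, ENNReal.toReal_add hK.measure_lt_top.ne
    (ENNReal.mul_ne_top ENNReal.ofReal_ne_top hP.measure_lt_top.ne), ENNReal.toReal_mul,
    ENNReal.toReal_ofReal hs]
  ring

theorem sw_zero (K : Set V) : sw K (0 : V) = 0 := by
  simp [sw]

theorem sw_smul {K : Set V} (hK : IsCompact K) (hc : Convex ℝ K) (u : V)
    {s : ℝ} (hs : 0 ≤ s) : sw K (s • u) = s * sw K u := by
  by_cases h0 : u = 0
  · simp [h0, sw_zero]
  have hn : ‖u‖ ≠ 0 := by simpa using h0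
  have hu : ‖‖u‖⁻¹ • u‖ = 1 := by
    rw [norm_smul, norm_inv, norm_norm, inv_mul_cancel₀ hn]
  have e1 : u = ‖u‖ • (‖u‖⁻¹ • u) := by rw [smul_smul, mul_inv_cancel₀ hn, one_smul]
  have h1 := sweep_real hK hc _ hu (norm_nonneg u)
  have h2 := sweep_real hK hc _ hu (mul_nonneg hs (norm_nonneg u))
  rw [← e1] at h1
  rw [mul_smul, ← e1] at h2
  rw [h2, h1]
  ring

theorem sw_mono {K L : Set V} (hK : IsCompact K) (hcK : Convex ℝ K) (hL : IsCompact L)
    (hcL : Convex ℝ L) (h : L ⊆ K) (u : V) : sw L u ≤ sw K u := by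
  by_cases h0 : u = 0
  · simp [h0, sw_zero]
  have hn : ‖u‖ ≠ 0 := by simpa using h0
  have hu : ‖‖u‖⁻¹ • u‖ = 1 := by
    rw [norm_smul, norm_inv, norm_norm, inv_mul_cancel₀ hn]
  have e1 : u = ‖u‖ • (‖u‖⁻¹ • u) := by rw [smul_smul, mul_inv_cancel₀ hn, one_smul]
  have h1 := sweep_real hK hcK _ hu (norm_nonneg u)
  have h2 := sweep_real hL hcL _ hu (norm_nonneg u)
  rw [← e1] at h1 h2
  rw [h1, h2]
  refine mul_le_mul_of_nonneg_left ?_ (norm_nonneg u)
  refine ENNReal.toReal_mono ?_ (measure_mono (image_mono h))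
  exact (hK.image (ContinuousLinearMap.continuous _)).measure_lt_top.ne

theorem mem_iff {n : ℕ} {K : Set (E n)} (hK : Body K) (x : E n) :
    x ∈ projBody K ↔ ∀ u : E n, ⟪x, u⟫ ≤ sw K u := by
  constructor
  · intro h u
    by_cases h0 : u = 0
    · simp [h0, sw_zero]
    have hn : ‖u‖ ≠ 0 := by simpa using h0
    have hu : ‖‖u‖⁻¹ • u‖ = 1 := by
      rw [norm_smul, norm_inv, norm_norm, inv_mul_cancel₀ hn]
    have e1 : u = ‖u‖ • (‖u‖⁻¹ • u) := by rw [smul_smul, mul_inv_cancel₀ hn, one_smul]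
    have h1 := sweep_real hK.compact hK.convex _ hu (norm_nonneg u)
    rw [← e1] at h1
    rw [h1]
    have h2 := h _ hu
    rw [inner_smul_right] at h2
    have h3 : ⟪x, u⟫ = ‖u‖ * (‖u‖⁻¹ * ⟪x, u⟫) := by
      rw [← mul_assoc, mul_inv_cancel₀ hn, one_mul]
    rw [h3]
    exact mul_le_mul_of_nonneg_left h2 (norm_nonneg u)
  · intro h u hu
    have h1 := sweep_real hK.compact hK.convex u hu zero_le_one
    rw [one_smul, one_mul] at h1
    rw [shadow, ← h1]
    exact h u

end P237
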