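import Mathlib
import Vale.Agent.P237.Defs
import Vale.Agent.P237.Sweep

open MeasureTheory Set
open scoped Pointwise RealInnerProductSpace

namespace P237

theorem body_vol_pos {n : ℕ} {K : Set (E n)} (hK : Body K) : 0 < vol K := by
  refine ENNReal.toReal_pos ?_ hK.compact.measure_lt_top.ne
  exact (Measure.measure_pos_of_nonempty_interior volume hK.int).ne'

theorem sw_bound {n : ℕ} {K : Set (E n)} (hK : Body K) :
    ∃ C : ℝ, ∀ u : E n, ‖u‖ = 1 → sw K u ≤ C := by
  obtain ⟨R, hR⟩ := hK.compact.isBounded.exists_norm_le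
  refine ⟨(volume (Metric.closedBall (0 : E n) (R + 1))).toReal, fun u hu => ?_⟩
  have h1 : K + segment ℝ 0 u ⊆ Metric.closedBall (0 : E n) (R + 1) := by
    rintro _ ⟨k, hk, z, hz, rfl⟩
    rw [mem_closedBall_zero_iff]
    refine (norm_add_le _ _).trans (add_le_add (hR k hk) ?_)
    rw [segment_eq_image] at hz
    obtain ⟨r, hr, rfl⟩ := hz
    simp only [smul_zero, zero_add, norm_smul, hu, mul_one, Real.norm_eq_abs]
    rw [abs_of_nonneg hr.1]
    exact hr.2
  have h2 : (volume (K + segment ℝ 0 u)).toReal ≤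
      (volume (Metric.closedBall (0 : E n) (R + 1))).toReal :=
    ENNReal.toReal_mono (isCompact_closedBall _ _).measure_lt_top.ne (measure_mono h1)
  have h3 : 0 ≤ (volume K).toReal := ENNReal.toReal_nonneg
  rw [sw]
  linarith

theorem projBody_compact {n : ℕ} {K : Set (E n)} (hK : Body K) : IsCompact (projBody K) := by
  apply Metric.isCompact_of_isClosed_isBounded
  · have : projBody K = ⋂ u : E n, ⋂ (_ : ‖u‖ = 1), {x | ⟪x, u⟫ ≤ shadow K u} := by
      ext x
      simp [projBody]
    rw [this]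
    refine isClosed_iInter fun u => isClosed_iInter fun _ => ?_
    exact isClosed_le (by fun_prop) continuous_const
  · obtain ⟨C, hC⟩ := sw_bound hK
    refine isBounded_iff_forall_norm_le.2 ⟨max C 0, fun x hx => ?_⟩
    by_cases h0 : x = 0
    · simp [h0]
    have hn : ‖x‖ ≠ 0 := by simpa using h0
    have hu : ‖‖x‖⁻¹ • x‖ = 1 := by
      rw [norm_smul, norm_inv, norm_norm, inv_mul_cancel₀ hn]
    have h1 := (mem_iff hK x).1 hx (‖x‖⁻¹ • x)
    have h2 := hC _ hu
    rw [inner_smul_right, real_inner_self_eq_norm_sq, pow_two, ← mul_assoc,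
      inv_mul_cancel₀ hn, one_mul] at h1
    exact (h1.trans h2).trans (le_max_left _ _)

theorem projBody_mono {n : ℕ} {K L : Set (E n)} (hK : Body K) (hL : Body L) (h : L ⊆ K) :
    projBody L ⊆ projBody K := by
  intro x hx
  rw [mem_iff hK]
  intro u
  exact ((mem_iff hL x).1 hx u).trans (sw_mono hK.compact hK.convex hL.compact hL.convex h u)

theorem vol_mono {n : ℕ} {A B : Set (E n)} (hB : IsCompact B) (h : A ⊆ B) : vol A ≤ vol B :=
  ENNReal.toReal_mono hB.measure_lt_top.ne (measure_mono h)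

theorem vol_projBody_mono {n : ℕ} {K L : Set (E n)} (hK : Body K) (hL : Body L) (h : L ⊆ K) :
    vol (projBody L) ≤ vol (projBody K) :=
  vol_mono (projBody_compact hK) (projBody_mono hK hL h)

theorem vol_smul {n : ℕ} (K : Set (E n)) {r : ℝ} (hr : 0 ≤ r) : vol (r • K) = r ^ n * vol K := by
  rw [vol, vol, Measure.addHaar_smul, ENNReal.toReal_mul, finrank_euclideanSpace_fin,
    abs_of_nonneg (pow_nonneg hr n), ENNReal.toReal_ofReal (pow_nonneg hr n)]

/-- the constant in Petty's conjecture -/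
noncomputable def petty (n : ℕ) : ℝ := kappa (n - 1) ^ n * kappa n ^ (2 - (n : ℤ))

theorem kappa_pos (n : ℕ) : 0 < kappa n := by
  refine ENNReal.toReal_pos ?_ (isCompact_closedBall _ _).measure_lt_top.ne
  exact (Metric.measure_closedBall_pos volume _ one_pos).ne'

theorem petty_lt {n : ℕ} (hn : 2 ≤ n)
    (h : kappa (n - 1) ^ n < 2 ^ n * kappa n ^ (n - 2)) : petty n < 2 ^ n := by
  have hk := kappa_pos n
  have e : kappa n ^ (2 - (n : ℤ)) = (kappa n ^ (n - 2))⁻¹ := by
    rw [← zpow_natCast, ← zpow_neg]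
    congr 1
    push_cast [hn]
    ring
  rw [petty, e, ← div_eq_mul_inv, div_lt_iff₀ (pow_pos hk _)]
  exact h

end P237
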