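import Vale.Agent.P237.Cat
import Vale.Agent.P237.Sweep
import Vale.Agent.P237.Core
import Vale.Agent.P237.ConeDefs

/-! P237 [C2]: `sw L u / d ≤ sw (cone L) (pad u 0)`. -/

open MeasureTheory Set
open scoped Pointwise RealInnerProductSpace ENNReal

namespace P237

namespace Cone2

theorem ext_fst_ht {d : ℕ} {x y : E (d + 1)} (h1 : (fst x : E d) = fst y) (h2 : ht x = ht y) :
    x = y := by
  ext i
  refine Fin.lastCases ?_ (fun j => ?_) i
  · exact h2
  · exact congrArg (fun z : E d => z j) h1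

theorem sw_nonneg {d : ℕ} {L : Set (E d)} (hL : IsCompact L) (u : E d) : 0 ≤ sw L u := by
  have h1 : L ⊆ L + segment ℝ 0 u := fun x hx =>
    ⟨x, hx, 0, left_mem_segment ℝ 0 u, add_zero x⟩
  have h2 := vol_mono (swept_compact hL u) h1
  unfold sw
  unfold vol at h2
  linarith

/-- volume of the swept slice -/
theorem slice_vol {d : ℕ} (hd : 1 ≤ d) {L : Set (E d)} (hL : Body L) (u : E d) {s : ℝ}
    (hs : 0 < s) :
    vol (s • L + segment ℝ 0 u) = s ^ d * vol L + s ^ (d - 1) * sw L u := by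
  have e : s • L + segment ℝ 0 u = s • (L + segment ℝ 0 (s⁻¹ • u)) := by
    rw [smul_add]
    congr 1
    rw [segment_eq_image, segment_eq_image]
    ext x
    constructor
    · rintro ⟨r, hr, rfl⟩
      refine ⟨_, ⟨r, hr, rfl⟩, ?_⟩
      simp only [smul_zero, zero_add]
      rw [smul_comm s r, smul_smul s s⁻¹, mul_inv_cancel₀ hs.ne', one_smul]
    · rintro ⟨_, ⟨r, hr, rfl⟩, rfl⟩
      refine ⟨r, hr, ?_⟩
      simp only [smul_zero, zero_add]
      rw [smul_comm s r, smul_smul s s⁻¹, mul_inv_cancel₀ hs.ne', one_smul]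
  rw [e, vol_smul _ hs.le]
  have h1 := sw_smul hL.compact hL.convex u (inv_nonneg.2 hs.le)
  have h2 : vol (L + segment ℝ 0 (s⁻¹ • u)) = vol L + s⁻¹ * sw L u := by
    rw [← h1]
    unfold sw vol
    ring
  rw [h2]
  obtain ⟨k, rfl⟩ : ∃ k, d = k + 1 := ⟨d - 1, by omega⟩
  rw [Nat.add_sub_cancel, pow_succ]
  field_simp

theorem slice_sub {d : ℕ} {L : Set (E d)} (u : E d) {t : ℝ} (ht0 : 0 ≤ t) (ht1 : t ≤ 1) :
    (1 - t) • L + segment ℝ 0 u ⊆ {x : E d | pad x t ∈ cone L + segment ℝ 0 (pad u 0)} := by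
  rintro _ ⟨a, ha, b, hb, rfl⟩
  rw [segment_eq_image] at hb
  obtain ⟨r, hr, rfl⟩ := hb
  refine ⟨pad a t, ⟨by rw [ht_pad]; exact ht0, by rw [ht_pad]; exact ht1, ?_⟩, r • pad u 0, ?_, ?_⟩
  · rw [ht_pad, fst_pad]
    exact ha
  · rw [segment_eq_image]
    exact ⟨r, hr, by simp⟩
  · apply ext_fst_ht
    · rw [fst_add, fst_smul, fst_pad, fst_pad, fst_pad]
      simp
    · have h1 : ht (pad a t + r • pad u 0) = ht (pad a t) + r * ht (pad u 0) := rfl
      show ht (pad a t + r • pad u 0) = _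
      rw [h1, ht_pad, ht_pad, ht_pad]
      ring

theorem integral_val (d : ℕ) (hd : 1 ≤ d) (a b : ℝ) :
    ∫ t in (0 : ℝ)..1, ((1 - t) ^ d * a + (1 - t) ^ (d - 1) * b) = a / (d + 1) + b / d := by
  have hd0 : (0 : ℝ) < d := by exact_mod_cast hd
  have h := intervalIntegral.integral_comp_sub_left (a := 0) (b := 1)
    (fun x : ℝ => x ^ d * a + x ^ (d - 1) * b) 1
  rw [h, sub_self, sub_zero, intervalIntegral.integral_add, intervalIntegral.integral_mul_const,
    intervalIntegral.integral_mul_const, integral_pow, integral_pow]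
  · obtain ⟨k, rfl⟩ : ∃ k, d = k + 1 := ⟨d - 1, by omega⟩
    rw [Nat.add_sub_cancel]
    push_cast
    simp
    field_simp
  · exact (by fun_prop : Continuous fun x : ℝ => x ^ d * a).intervalIntegrable _ _
  · exact (by fun_prop : Continuous fun x : ℝ => x ^ (d - 1) * b).intervalIntegrable _ _

end Cone2

open Cone2 in
/-- row C2 -/
theorem c2 {d : ℕ} (hd : 1 ≤ d) {L : Set (E d)} (hL : Body L) (hC : Body (cone L))
    (hv : vol (cone L) = vol L / (d + 1))
    (hs : ∀ S : Set (E (d + 1)), MeasurableSet S →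
      volume S = ∫⁻ t : ℝ, volume {x : E d | pad x t ∈ S}) (u : E d) :
    sw L u / d ≤ sw (cone L) (pad u 0) := by
  have hd0 : (0 : ℝ) < d := by exact_mod_cast hd
  have hSc : IsCompact (cone L + segment ℝ 0 (pad u 0)) := swept_compact hC.compact _
  have hsw := sw_nonneg hL.compact u
  have hvl : 0 ≤ vol L := ENNReal.toReal_nonneg
  set f : ℝ → ℝ := fun t => (1 - t) ^ d * vol L + (1 - t) ^ (d - 1) * sw L u with hf
  have hfc : Continuous f := by rw [hf]; fun_prop
  have hle : ENNReal.ofReal (vol L / (d + 1) + sw L u / d) ≤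
      volume (cone L + segment ℝ 0 (pad u 0)) := by
    rw [hs _ hSc.isClosed.measurableSet, ← integral_val d hd, ]
    rw [intervalIntegral.integral_of_le zero_le_one, integral_Ioc_eq_integral_Ioo,
      ofReal_integral_eq_lintegral_ofReal, ← lintegral_indicator measurableSet_Ioo]
    · refine lintegral_mono fun t => ?_
      by_cases ht : t ∈ Ioo (0 : ℝ) 1
      · rw [indicator_of_mem ht]
        have h1 := slice_vol hd hL u (s := 1 - t) (by linarith [ht.2])
        rw [← h1, vol, ENNReal.ofReal_toReal]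
        · exact measure_mono (slice_sub u ht.1.le ht.2.le)
        · exact (swept_compact (hL.compact.smul _) u).measure_lt_top.ne
      · rw [indicator_of_notMem ht]
        exact zero_le
    · exact (hfc.integrableOn_Icc (a := 0) (b := 1)).mono_set Ioo_subset_Icc_self
    · refine (ae_restrict_iff' measurableSet_Ioo).2 (Filter.Eventually.of_forall fun t ht => ?_)
      have : 0 ≤ 1 - t := by linarith [ht.2]
      show 0 ≤ (1 - t) ^ d * vol L + (1 - t) ^ (d - 1) * sw L u
      positivity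
  have h2 := ENNReal.toReal_mono hSc.measure_lt_top.ne hle
  rw [ENNReal.toReal_ofReal (by positivity)] at h2
  have h3 : sw (cone L) (pad u 0) = (volume (cone L + segment ℝ 0 (pad u 0))).toReal -
      vol (cone L) := rfl
  rw [h3, hv]
  linarith

end P237
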