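import Vale.Agent.P237.ConeDefs
import Vale.Agent.P237.Cat

/-! P237, row C3: the cone over `L` and pairs of vectors of opposite heights. -/

open MeasureTheory Set
open scoped Pointwise RealInnerProductSpace

namespace P237

namespace C3

theorem mp_one : MeasurePreserving (fun y : E 1 => y 0) volume volume :=
  (volume_preserving_funUnique (Fin 1) ℝ).comp (PiLp.volume_preserving_ofLp (Fin 1))

theorem vol_slab (c : ℝ) : volume {y : E 1 | 0 ≤ y 0 ∧ y 0 < c} = ENNReal.ofReal c := by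
  have h : {y : E 1 | 0 ≤ y 0 ∧ y 0 < c} = (fun y : E 1 => y 0) ⁻¹' Ico 0 c := rfl
  rw [h, mp_one.measure_preimage measurableSet_Ico.nullMeasurableSet, Real.volume_Ico, sub_zero]

theorem ht_add {d : ℕ} (x y : E (d + 1)) : ht (x + y) = ht x + ht y := rfl
theorem ht_smul {d : ℕ} (c : ℝ) (x : E (d + 1)) : ht (c • x) = c * ht x := rfl
theorem ht_sub {d : ℕ} (x y : E (d + 1)) : ht (x - y) = ht x - ht y := rfl
theorem fst_sub {d : ℕ} (x y : E (d + 1)) : fst (m := d) (n := 1) (x - y) = fst x - fst y := rfl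

/-- the finite inequality -/
theorem finite {d : ℕ} {K W : Set (E (d + 1))} (hK : IsCompact K) (hW : MeasurableSet W)
    (v w : E (d + 1)) (hWK : W ⊆ K) (hW1 : W ⊆ (fun x => x + (v + w)) '' K)
    (hW2 : Disjoint W ((fun x => x + v) '' K)) :
    volume ((fun x => x + (v + w)) '' K \ K) + volume W ≤
      volume ((fun x => x + w) '' K \ K) + volume ((fun x => x + v) '' K \ K) := by
  have hcm : ∀ a : E (d + 1), MeasurableSet ((fun x => x + a) '' K) := fun a =>
    (hK.image (continuous_id.add continuous_const)).isClosed.measurableSet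
  have h1 : volume ((fun x => x + (v + w)) '' K \ (fun x => x + v) '' K) =
      volume ((fun x => x + w) '' K \ K) := by
    rw [← measure_preimage_add_right volume v]
    congr 1
    ext x
    constructor
    · rintro ⟨⟨k, hk, h⟩, h2⟩
      refine ⟨⟨k, hk, ?_⟩, fun hx => h2 ⟨x, hx, rfl⟩⟩
      have h' : k + (v + w) = x + v := h
      show k + w = x
      have h3 : k + w + v = x + v := by
        rw [← h']
        abel
      exact add_right_cancel h3
    · rintro ⟨⟨k, hk, h⟩, h2⟩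
      refine ⟨⟨k, hk, ?_⟩, ?_⟩
      · have h' : k + w = x := h
        show k + (v + w) = x + v
        rw [← h']
        abel
      · rintro ⟨k', hk', h3⟩
        have h3' : k' + v = x + v := h3
        exact h2 (add_right_cancel h3' ▸ hk')
  have hd : Disjoint ((fun x => x + (v + w)) '' K \ K) W :=
    Set.disjoint_left.2 fun x hx hxW => hx.2 (hWK hxW)
  rw [← measure_union hd hW, ← h1]
  refine (measure_mono ?_).trans (measure_union_le _ _)
  rintro x (hx | hx)
  · by_cases hxv : x ∈ (fun x => x + v) '' K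
    · exact Or.inr ⟨hxv, hx.2⟩
    · exact Or.inl ⟨hx.1, hxv⟩
  · exact Or.inl ⟨hW1 hx, Set.disjoint_left.1 hW2 hx⟩

theorem mem_cone {d : ℕ} {L : Set (E d)} {x : E (d + 1)} (h0 : 0 ≤ ht x) (h1 : ht x < 1)
    (h : (1 - ht x)⁻¹ • fst (m := d) (n := 1) x ∈ L) : x ∈ cone L := by
  refine ⟨h0, h1.le, mem_smul_set.2 ⟨_, h, ?_⟩⟩
  have : 1 - ht x ≠ 0 := by linarith
  rw [smul_smul, mul_inv_cancel₀ this, one_smul]

theorem near {d : ℕ} {K0 L : Set (E d)} {δ R : ℝ}
    (hδ : Metric.thickening δ K0 ⊆ interior L) (hR : ∀ y ∈ K0, ‖y‖ ≤ R) (hR0 : 0 ≤ R)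
    {y e : E d} (hy : y ∈ K0) {t : ℝ} (ht0 : 0 ≤ t) (ht1 : t ≤ 1 / 2)
    (h : 2 * (t * R + ‖e‖) < δ) : (1 - t)⁻¹ • (y - e) ∈ L := by
  refine interior_subset (hδ (Metric.mem_thickening_iff.2 ⟨y, hy, ?_⟩))
  have h1 : (1 - t) ≠ 0 := by linarith
  have h2 : (1 - t)⁻¹ • (y - e) - y = (1 - t)⁻¹ • (t • y - e) := by
    have : y = (1 - t)⁻¹ • ((1 - t) • y) := by
      rw [smul_smul, inv_mul_cancel₀ h1, one_smul]
    nth_rewrite 2 [this]
    rw [← smul_sub]
    congr 1
    rw [sub_smul, one_smul]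
    abel
  rw [dist_eq_norm, h2, norm_smul]
  have h3 : ‖(1 - t)⁻¹‖ ≤ 2 := by
    rw [Real.norm_of_nonneg (by rw [inv_nonneg]; linarith)]
    rw [inv_le_comm₀ (by linarith) (by norm_num)]
    linarith
  have h4 : ‖t • y - e‖ ≤ t * R + ‖e‖ := by
    refine (norm_sub_le _ _).trans (add_le_add ?_ le_rfl)
    rw [norm_smul, Real.norm_of_nonneg ht0]
    exact mul_le_mul_of_nonneg_left (hR y hy) ht0
  have h5 : 0 ≤ t * R + ‖e‖ := by positivity
  calc ‖(1 - t)⁻¹‖ * ‖t • y - e‖ ≤ 2 * (t * R + ‖e‖) :=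
        mul_le_mul h3 h4 (norm_nonneg _) (by norm_num)
    _ < δ := h

/-- the thin prism over `K0` -/
def prism {d : ℕ} (K0 : Set (E d)) (c : ℝ) : Set (E (d + 1)) :=
  cat K0 {y : E 1 | 0 ≤ y 0 ∧ y 0 < c}

theorem mem_prism {d : ℕ} {K0 : Set (E d)} {c : ℝ} {x : E (d + 1)} :
    x ∈ prism K0 c ↔ fst (m := d) (n := 1) x ∈ K0 ∧ 0 ≤ ht x ∧ ht x < c := Iff.rfl

theorem prism_vol {d : ℕ} (K0 : Set (E d)) (c : ℝ) :
    volume (prism K0 c) = volume K0 * ENNReal.ofReal c := by
  unfold prism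
  rw [cat_volume, vol_slab]

theorem prism_meas {d : ℕ} {K0 : Set (E d)} (h : MeasurableSet K0) (c : ℝ) :
    MeasurableSet (prism K0 c) := by
  have h1 : MeasurableSet {y : E 1 | 0 ≤ y 0 ∧ y 0 < c} :=
    mp_one.measurable measurableSet_Ico
  exact (cat_mp d 1).measurable (h.prod h1)

/-- the inequality for one small `ε` -/
theorem step {d : ℕ} {K0 L : Set (E d)} (hK0 : IsCompact K0) (hK : IsCompact (cone L)) {δ R : ℝ}
    (hδ : Metric.thickening δ K0 ⊆ interior L) (hR : ∀ y ∈ K0, ‖y‖ ≤ R) (hR0 : 0 ≤ R)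
    (v w : E (d + 1)) {s : ℝ} (hs : 0 < s) (hv : ht v = s) (hw : ht w = -s) {ε : ℝ} (hε : 0 < ε)
    (h1 : ε * s ≤ 1 / 2)
    (h2 : 2 * (ε * s * R + ε * ‖fst (m := d) (n := 1) (v + w)‖) < δ) :
    (volume ((fun x => x + ε • (v + w)) '' cone L \ cone L)).toReal + vol K0 * (ε * s) ≤
      (volume ((fun x => x + ε • w) '' cone L \ cone L)).toReal +
        (volume ((fun x => x + ε • v) '' cone L \ cone L)).toReal := by
  have hfin : ∀ a : E (d + 1), volume ((fun x => x + a) '' cone L \ cone L) ≠ ⊤ := fun a =>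
    (lt_of_le_of_lt (measure_mono sdiff_subset)
      (hK.image (continuous_id.add continuous_const)).measure_lt_top).ne
  have hvw : ht (v + w) = 0 := by
    rw [ht_add, hv, hw]
    ring
  have hεs : 0 < ε * s := mul_pos hε hs
  have hE : 0 ≤ ε * ‖fst (m := d) (n := 1) (v + w)‖ := mul_nonneg hε.le (norm_nonneg _)
  have hWK : prism K0 (ε * s) ⊆ cone L := by
    intro x hx
    rw [mem_prism] at hx
    obtain ⟨hx1, hx2, hx3⟩ := hx
    refine mem_cone hx2 (by linarith) ?_
    have := near hδ hR hR0 (e := 0) hx1 hx2 (by linarith) (by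
      rw [norm_zero, add_zero]
      nlinarith)
    rwa [sub_zero] at this
  have hW1 : prism K0 (ε * s) ⊆ (fun x => x + (ε • v + ε • w)) '' cone L := by
    intro x hx
    rw [mem_prism] at hx
    obtain ⟨hx1, hx2, hx3⟩ := hx
    refine ⟨x - ε • (v + w), ?_, ?_⟩
    · have hh : ht (x - ε • (v + w)) = ht x := by
        rw [ht_sub, ht_smul, hvw, mul_zero, sub_zero]
      refine mem_cone (by rw [hh]; exact hx2) (by rw [hh]; linarith) ?_
      rw [hh, fst_sub, fst_smul]
      refine near hδ hR hR0 hx1 hx2 (by linarith) ?_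
      rw [norm_smul, Real.norm_of_nonneg hε.le]
      nlinarith
    · show x - ε • (v + w) + (ε • v + ε • w) = x
      rw [smul_add]
      abel
  have hW2 : Disjoint (prism K0 (ε * s)) ((fun x => x + ε • v) '' cone L) := by
    rw [Set.disjoint_left]
    rintro x hx ⟨k, hk, rfl⟩
    rw [mem_prism] at hx
    have h3 : ht (k + ε • v) < ε * s := hx.2.2
    rw [ht_add, ht_smul, hv] at h3
    have := hk.1
    linarith
  have h := finite hK (prism_meas hK0.isClosed.measurableSet (ε * s)) (ε • v) (ε • w) hWK hW1 hW2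
  rw [prism_vol] at h
  have h5 := ENNReal.toReal_mono (ENNReal.add_ne_top.2 ⟨hfin _, hfin _⟩) h
  rw [ENNReal.toReal_add (hfin _) (ENNReal.mul_ne_top hK0.measure_lt_top.ne ENNReal.ofReal_ne_top),
    ENNReal.toReal_add (hfin _) (hfin _), ENNReal.toReal_mul, ENNReal.toReal_ofReal hεs.le,
    ← smul_add] at h5
  exact h5

theorem compact_bound {d : ℕ} {K0 L : Set (E d)} (hK0 : IsCompact K0) (hK0L : K0 ⊆ interior L)
    (hK : IsCompact (cone L)) (v w : E (d + 1)) {s : ℝ} (hs : 0 < s) (hv : ht v = s)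
    (hw : ht w = -s)
    (low : ∀ u : E (d + 1), Filter.Tendsto (fun k : ℕ => ((k : ℝ) + 1) *
      (volume ((fun x => x + ((k : ℝ) + 1)⁻¹ • u) '' cone L \ cone L)).toReal) Filter.atTop
      (nhds (sw (cone L) u))) :
    sw (cone L) (v + w) + s * vol K0 ≤ sw (cone L) w + sw (cone L) v := by
  obtain ⟨δ, hδ0, hδ⟩ := hK0.exists_thickening_subset_open isOpen_interior hK0L
  obtain ⟨R, hR⟩ := hK0.isBounded.exists_norm_le
  have hR' : ∀ y ∈ K0, ‖y‖ ≤ max R 0 := fun y hy => (hR y hy).trans (le_max_left _ _)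
  set z : ℝ := ‖fst (m := d) (n := 1) (v + w)‖ with hz
  have hz0 : 0 ≤ z := norm_nonneg _
  set C : ℝ := 2 * (s * max R 0 + z) + 2 * s with hC
  have hC0 : 0 < C := by
    have : 0 ≤ s * max R 0 := mul_nonneg hs.le (le_max_right _ _)
    positivity
  have hlim : Filter.Tendsto (fun k : ℕ => ((k : ℝ) + 1)⁻¹ * C) Filter.atTop (nhds 0) := by
    have h := (tendsto_one_div_add_atTop_nhds_zero_nat (𝕜 := ℝ)).mul_const C
    rw [zero_mul] at h
    refine h.congr fun k => ?_
    rw [one_div]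
  have hev : ∀ᶠ k : ℕ in Filter.atTop, ((k : ℝ) + 1)⁻¹ * C < min δ 1 :=
    hlim.eventually (gt_mem_nhds (lt_min hδ0 one_pos))
  refine le_of_tendsto_of_tendsto ((low (v + w)).add_const (s * vol K0))
    ((low w).add (low v)) ?_
  filter_upwards [hev] with k hk
  have hk1 : (0 : ℝ) < (k : ℝ) + 1 := by positivity
  have hε : 0 < ((k : ℝ) + 1)⁻¹ := inv_pos.2 hk1
  have hkδ := hk.trans_le (min_le_left _ _)
  have hk2 := hk.trans_le (min_le_right _ _)
  set ε : ℝ := ((k : ℝ) + 1)⁻¹ with hεd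
  have hm0 : 0 ≤ max R 0 := le_max_right _ _
  have hA : 0 ≤ ε * (2 * (s * max R 0 + z)) := by positivity
  have hB : 0 ≤ ε * (2 * s) := by positivity
  have hCC : ε * C = ε * (2 * (s * max R 0 + z)) + ε * (2 * s) := by
    rw [hC]
    ring
  have hst := step hK0 hK hδ hR' (le_max_right _ _) v w hs hv hw hε (by linarith) (by
    rw [← hz]
    have : 2 * (ε * s * max R 0 + ε * z) = ε * (2 * (s * max R 0 + z)) := by ring
    rw [this]
    linarith)
  have hmul := mul_le_mul_of_nonneg_left hst hk1.le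
  have he : ((k : ℝ) + 1) * ε = 1 := mul_inv_cancel₀ hk1.ne'
  have h6 : ((k : ℝ) + 1) * (vol K0 * (ε * s)) = s * vol K0 := by
    calc ((k : ℝ) + 1) * (vol K0 * (ε * s)) = (((k : ℝ) + 1) * ε) * (s * vol K0) := by ring
      _ = s * vol K0 := by rw [he, one_mul]
  rw [mul_add, mul_add, h6] at hmul
  exact hmul

end C3

/-- Row C3. -/
theorem cone3 {d : ℕ} {L : Set (E d)} (hL : Body L) (hK : IsCompact (cone L))
    (v w : E (d + 1)) {s : ℝ} (hs : 0 < s) (hv : ht v = s) (hw : ht w = -s)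
    (low : ∀ u : E (d + 1), Filter.Tendsto (fun k : ℕ => ((k : ℝ) + 1) *
      (volume ((fun x => x + ((k : ℝ) + 1)⁻¹ • u) '' cone L \ cone L)).toReal) Filter.atTop
      (nhds (sw (cone L) u))) :
    s * vol L + sw (cone L) (v + w) ≤ sw (cone L) v + sw (cone L) w := by
  have hfr : volume (frontier L) = 0 := hL.convex.addHaar_frontier volume
  have hint : volume (interior L) = volume L :=
    measure_congr (interior_ae_eq_of_null_frontier hfr)
  have hfin : volume L ≠ ⊤ := hL.compact.measure_lt_top.ne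
  by_contra hcon
  rw [not_le] at hcon
  set r : ℝ := (sw (cone L) v + sw (cone L) w - sw (cone L) (v + w)) / s with hr
  have h0 := C3.compact_bound (K0 := (∅ : Set (E d))) isCompact_empty (empty_subset _) hK v w hs
    hv hw low
  have hvol0 : vol (∅ : Set (E d)) = 0 := by simp [vol]
  rw [hvol0, mul_zero, add_zero] at h0
  have hr0 : 0 ≤ r := div_nonneg (by linarith) hs.le
  have hrL : r < vol L := by
    rw [hr, div_lt_iff₀ hs]
    linarith
  have h1 : ENNReal.ofReal r < volume (interior L) := by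
    rw [hint, ENNReal.ofReal_lt_iff_lt_toReal hr0 hfin]
    exact hrL
  obtain ⟨K0, hK0, hK0c, hlt⟩ := isOpen_interior.exists_lt_isCompact h1
  have h2 := C3.compact_bound hK0c hK0 hK v w hs hv hw low
  have h3 : r < vol K0 := (ENNReal.ofReal_lt_iff_lt_toReal hr0 hK0c.measure_lt_top.ne).1 hlt
  rw [hr, div_lt_iff₀ hs] at h3
  linarith

end P237
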