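import Vale.Agent.P237.Cat
import Vale.Agent.P237.Sweep
import Vale.Agent.P237.Core
import Vale.Agent.P237.ConeDefs

/-! P237 [C4]: `|L| |Π L| / d^d ≤ |Π (cone L)|`. -/

open MeasureTheory Set
open scoped Pointwise RealInnerProductSpace ENNReal

namespace P237

namespace Cone4

theorem ext_fst_ht {d : ℕ} {x y : E (d + 1)} (h1 : (fst x : E d) = fst y) (h2 : ht x = ht y) :
    x = y := by
  ext i
  refine Fin.lastCases ?_ (fun j => ?_) i
  · exact h2
  · exact congrArg (fun z : E d => z j) h1

theorem inner_eq {d : ℕ} (x y : E (d + 1)) :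
    ⟪x, y⟫ = ⟪(fst x : E d), fst y⟫ + ht x * ht y := by
  rw [inner_fst_snd]
  congr 1
  have h : Fin.natAdd d (0 : Fin 1) = Fin.last d := rfl
  simp [PiLp.inner_apply, snd, ht, h, mul_comm]

theorem ht_glue {d : ℕ} (a : E d) (z : E 1) : ht (glue a z) = z 0 := by
  have h := congrArg (fun w : E 1 => w 0) (snd_glue a z)
  exact h

theorem ht_smul {d : ℕ} (c : ℝ) (x : E (d + 1)) : ht (c • x) = c * ht x := rfl

theorem ht_add {d : ℕ} (x y : E (d + 1)) : ht (x + y) = ht x + ht y := rfl

theorem coord_mp : MeasurePreserving (fun z : E 1 => z 0) volume volume :=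
  (volume_preserving_funUnique (Fin 1) ℝ).comp (PiLp.volume_preserving_ofLp (Fin 1))

/-- the fibre over `x'` contains an interval of length `vol L` -/
theorem fibre {d : ℕ} (hd : 1 ≤ d) {L : Set (E d)} (hL : Body L) (hC1 : Body (cone L))
    (hC2 : ∀ u : E d, sw L u / d ≤ sw (cone L) (pad u 0))
    (hC3 : ∀ (v w : E (d + 1)) (s : ℝ), 0 < s → ht v = s → ht w = -s →
      s * vol L + sw (cone L) (v + w) ≤ sw (cone L) v + sw (cone L) w)
    {x : E d} (hx : (d : ℝ) • x ∈ projBody L) :
    ∃ A : ℝ, ∀ z : E 1, z 0 ∈ Icc A (A + vol L) → glue x z ∈ projBody (cone L) := by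
  have hd0 : (0 : ℝ) < d := by exact_mod_cast hd
  have hx0 : ∀ p : E d, ⟪x, p⟫ ≤ sw (cone L) (pad p 0) := by
    intro p
    refine le_trans ?_ (hC2 p)
    rw [le_div_iff₀ hd0]
    have h := (mem_iff hL _).1 hx p
    rw [real_inner_smul_left] at h
    linarith
  have hkey : ∀ p q : E d, ⟪x, q⟫ - sw (cone L) (pad q (-1)) ≤
      sw (cone L) (pad p 1) - ⟪x, p⟫ - vol L := by
    intro p q
    have h3 := hC3 (pad p 1) (pad q (-1)) 1 one_pos (ht_pad _ _) (ht_pad _ _)
    have e : pad p 1 + pad q (-1) = pad (p + q) 0 := by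
      apply ext_fst_ht
      · rw [fst_add, fst_pad, fst_pad, fst_pad]
      · rw [ht_add, ht_pad, ht_pad, ht_pad]; norm_num
    rw [e] at h3
    have h0 := hx0 (p + q)
    rw [inner_add_right] at h0
    linarith
  set S : Set ℝ := range fun q : E d => ⟪x, q⟫ - sw (cone L) (pad q (-1)) with hS
  have hne : S.Nonempty := range_nonempty _
  have hbd : BddAbove S := ⟨sw (cone L) (pad 0 1) - ⟪x, (0 : E d)⟫ - vol L, by
    rintro _ ⟨q, rfl⟩; exact hkey 0 q⟩
  refine ⟨sSup S, fun z hz => ?_⟩
  rw [mem_iff hC1]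
  intro u
  rw [inner_eq, fst_glue, ht_glue]
  rcases lt_trichotomy (ht u) 0 with h | h | h
  · -- negative height
    set t : ℝ := -ht u with ht'
    have htp : 0 < t := by linarith
    have e : u = t • pad (t⁻¹ • (fst u : E d)) (-1) := by
      apply ext_fst_ht
      · rw [fst_smul, fst_pad, smul_smul, mul_inv_cancel₀ htp.ne', one_smul]
      · rw [ht_smul, ht_pad]; linarith
    have h1 : ⟪x, t⁻¹ • (fst u : E d)⟫ - sw (cone L) (pad (t⁻¹ • (fst u : E d)) (-1)) ≤ z 0 :=
      (le_csSup hbd ⟨_, rfl⟩).trans hz.1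
    have h2 : sw (cone L) u = t * sw (cone L) (pad (t⁻¹ • (fst u : E d)) (-1)) := by
      conv_lhs => rw [e]
      exact sw_smul hC1.compact hC1.convex _ htp.le
    rw [h2]
    rw [real_inner_smul_right] at h1
    have h4 := mul_le_mul_of_nonneg_left h1 htp.le
    rw [mul_sub, ← mul_assoc, mul_inv_cancel₀ htp.ne', one_mul] at h4
    have h5 : z 0 * ht u = -(t * z 0) := by rw [ht']; ring
    rw [h5]
    linarith
  · -- height zero
    have e : u = pad (fst u : E d) 0 := by
      apply ext_fst_ht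
      · rw [fst_pad]
      · rw [ht_pad, h]
    rw [h, mul_zero, add_zero]
    have h1 := hx0 (fst u)
    rwa [← e] at h1
  · -- positive height
    set t : ℝ := ht u with ht'
    have e : u = t • pad (t⁻¹ • (fst u : E d)) 1 := by
      apply ext_fst_ht
      · rw [fst_smul, fst_pad, smul_smul, mul_inv_cancel₀ h.ne', one_smul]
      · rw [ht_smul, ht_pad]; linarith
    have h0 : sSup S ≤ sw (cone L) (pad (t⁻¹ • (fst u : E d)) 1) - ⟪x, t⁻¹ • (fst u : E d)⟫
        - vol L := by
      apply csSup_le hne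
      rintro _ ⟨q, rfl⟩
      exact hkey _ q
    have h1 : z 0 ≤ sw (cone L) (pad (t⁻¹ • (fst u : E d)) 1) - ⟪x, t⁻¹ • (fst u : E d)⟫ := by
      have := hz.2
      linarith
    have h2 : sw (cone L) u = t * sw (cone L) (pad (t⁻¹ • (fst u : E d)) 1) := by
      conv_lhs => rw [e]
      exact sw_smul hC1.compact hC1.convex _ h.le
    rw [h2]
    rw [real_inner_smul_right] at h1
    have h4 := mul_le_mul_of_nonneg_left h1 h.le
    rw [mul_sub, ← mul_assoc t t⁻¹, mul_inv_cancel₀ h.ne', one_mul] at h4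
    linarith

end Cone4

open Cone4 in
/-- row C4 -/
theorem c4 {d : ℕ} (hd : 1 ≤ d) {L : Set (E d)} (hL : Body L) (hC1 : Body (cone L))
    (hC2 : ∀ u : E d, sw L u / d ≤ sw (cone L) (pad u 0))
    (hC3 : ∀ (v w : E (d + 1)) (s : ℝ), 0 < s → ht v = s → ht w = -s →
      s * vol L + sw (cone L) (v + w) ≤ sw (cone L) v + sw (cone L) w) :
    vol L * vol (projBody L) / (d : ℝ) ^ d ≤ vol (projBody (cone L)) := by
  have hd0 : (0 : ℝ) < d := by exact_mod_cast hd
  have hQc : IsCompact (projBody (cone L)) := projBody_compact hC1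
  have hPc : IsCompact (projBody L) := projBody_compact hL
  set T : Set (E d × E 1) := (catL d 1).symm ⁻¹' (projBody (cone L)) with hT
  have hTm : MeasurableSet T :=
    (catL d 1).symm.continuous.measurable hQc.isClosed.measurableSet
  have hvol : volume (projBody (cone L)) = (volume.prod volume) T := by
    rw [← (catL_mp d 1).measure_preimage hTm.nullMeasurableSet, hT, ← preimage_comp]
    congr 1
    ext x
    simp
  set P : Set (E d) := ((d : ℝ)⁻¹) • projBody L with hP
  have hPm : MeasurableSet P := (hPc.smul _).isClosed.measurableSet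
  have hle : ENNReal.ofReal (vol L) * volume P ≤ volume (projBody (cone L)) := by
    rw [hvol, Measure.prod_apply hTm, ← lintegral_indicator_const hPm]
    refine lintegral_mono fun x => ?_
    by_cases hx : x ∈ P
    · rw [indicator_of_mem hx]
      have hx' : (d : ℝ) • x ∈ projBody L := by
        obtain ⟨y, hy, rfl⟩ := hx
        rw [smul_smul, mul_inv_cancel₀ hd0.ne', one_smul]
        exact hy
      obtain ⟨A, hA⟩ := fibre hd hL hC1 hC2 hC3 hx'
      have h1 : (fun z : E 1 => z 0) ⁻¹' (Icc A (A + vol L)) ⊆ Prod.mk x ⁻¹' T :=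
        fun z hz => hA z hz
      refine le_trans ?_ (measure_mono h1)
      rw [coord_mp.measure_preimage measurableSet_Icc.nullMeasurableSet, Real.volume_Icc,
        add_sub_cancel_left]
    · rw [indicator_of_notMem hx]
      exact zero_le
  have h2 := ENNReal.toReal_mono hQc.measure_lt_top.ne hle
  have hv0 : 0 ≤ vol L := ENNReal.toReal_nonneg
  rw [ENNReal.toReal_mul, ENNReal.toReal_ofReal hv0] at h2
  have h3 : (volume P).toReal = (d : ℝ)⁻¹ ^ d * vol (projBody L) :=
    vol_smul (projBody L) (inv_nonneg.2 hd0.le)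
  rw [h3] at h2
  refine le_trans (le_of_eq ?_) h2
  rw [inv_pow]
  field_simp

end P237
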