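import Vale.Agent.P237.Sweep

/-!
# P237, row LOW: the volume swept by a small translation
-/

open MeasureTheory Set Filter Topology
open scoped Pointwise RealInnerProductSpace

set_option linter.unusedSectionVars false

namespace P237

namespace Low

variable {V : Type*} [NormedAddCommGroup V] [InnerProductSpace ℝ V] [FiniteDimensional ℝ V]
  [MeasurableSpace V] [BorelSpace V]

/-- translate -/
def tr (K : Set V) (w : V) : Set V := (fun x => x + w) '' K

theorem mem_tr {K : Set V} {w y : V} : y ∈ tr K w ↔ y - w ∈ K := by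
  unfold tr
  constructor
  · rintro ⟨x, hx, rfl⟩
    simpa using hx
  · intro h
    exact ⟨_, h, by simp⟩

theorem volume_tr (K : Set V) (w : V) : volume (tr K w) = volume K := by
  unfold tr
  rw [image_add_right, measure_preimage_add_right]

/-- union of the first translates -/
def un (K : Set V) (w : V) : ℕ → Set V
  | 0 => K
  | m + 1 => un K w m ∪ tr K (((m : ℝ) + 1) • w)

theorem mem_un {K : Set V} {w y : V} {m j : ℕ} (hj : j ≤ m) (h : y - (j : ℝ) • w ∈ K) :
    y ∈ un K w m := by
  induction m with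
  | zero =>
    obtain rfl : j = 0 := by omega
    show y ∈ K
    simpa using h
  | succ m ih =>
    rcases Nat.lt_or_ge j (m + 1) with h1 | h1
    · exact Or.inl (ih (by omega))
    · obtain rfl : j = m + 1 := by omega
      refine Or.inr (mem_tr.2 ?_)
      push_cast at h
      exact h

theorem tr_subset_un {K : Set V} {w : V} (m : ℕ) : tr K ((m : ℝ) • w) ⊆ un K w m :=
  fun _ hy => mem_un le_rfl (mem_tr.1 hy)

theorem volume_un_le (K : Set V) (w : V) (m : ℕ) :
    volume (un K w m) ≤ volume K + m * volume (tr K w \ K) := by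
  induction m with
  | zero => simp [un]
  | succ m ih =>
    have h1 : un K w (m + 1) ⊆ un K w m ∪ tr (tr K w \ K) ((m : ℝ) • w) := by
      rintro y (hy | hy)
      · exact Or.inl hy
      · by_cases h : y ∈ tr K ((m : ℝ) • w)
        · exact Or.inl (tr_subset_un m h)
        · refine Or.inr (mem_tr.2 ⟨mem_tr.2 ?_, fun h2 => h (mem_tr.2 h2)⟩)
          have := mem_tr.1 hy
          rw [add_smul, one_smul] at this
          rwa [sub_sub]
    calc volume (un K w (m + 1)) ≤ volume (un K w m ∪ tr (tr K w \ K) ((m : ℝ) • w)) :=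
          measure_mono h1
      _ ≤ volume (un K w m) + volume (tr (tr K w \ K) ((m : ℝ) • w)) := measure_union_le _ _
      _ = volume (un K w m) + volume (tr K w \ K) := by rw [volume_tr]
      _ ≤ volume K + m * volume (tr K w \ K) + volume (tr K w \ K) := by gcongr
      _ = volume K + ((m + 1 : ℕ) : ENNReal) * volume (tr K w \ K) := by
          push_cast
          ring

theorem un_subset {K : Set V} {v : V} (N : ℕ) {m : ℕ} (hm : m ≤ N + 1) :
    un K (((N : ℝ) + 1)⁻¹ • v) m ⊆ K + segment ℝ 0 v := by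
  induction m with
  | zero =>
    intro y hy
    exact ⟨y, hy, 0, left_mem_segment _ _ _, by simp⟩
  | succ m ih =>
    rintro y (hy | hy)
    · exact ih (by omega) hy
    · refine ⟨_, mem_tr.1 hy, _, ?_, sub_add_cancel _ _⟩
      rw [smul_smul, segment_eq_image]
      refine ⟨((m : ℝ) + 1) * ((N : ℝ) + 1)⁻¹, ⟨by positivity, ?_⟩, by simp⟩
      rw [← div_eq_mul_inv, div_le_one (by positivity)]
      exact_mod_cast hm

theorem eventually_mem {K : Set V} {v y : V} (hy : y ∈ interior K + segment ℝ 0 v) :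
    ∀ᶠ N : ℕ in atTop, y ∈ un K (((N : ℝ) + 1)⁻¹ • v) (N + 1) := by
  obtain ⟨x, hx, z, hz, rfl⟩ := hy
  rw [segment_eq_image] at hz
  obtain ⟨t, ht, rfl⟩ := hz
  have h1 : Tendsto (fun N : ℕ => t - (⌊t * ((N : ℝ) + 1)⌋₊ : ℝ) * ((N : ℝ) + 1)⁻¹) atTop
      (𝓝 0) := by
    refine squeeze_zero (fun N => ?_) (fun N => ?_)
      (tendsto_one_div_add_atTop_nhds_zero_nat (𝕜 := ℝ))
    · have hN : (0 : ℝ) < (N : ℝ) + 1 := by positivity
      have := Nat.floor_le (mul_nonneg ht.1 hN.le)
      rw [sub_nonneg, ← div_eq_mul_inv, div_le_iff₀ hN]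
      exact this
    · have hN : (0 : ℝ) < (N : ℝ) + 1 := by positivity
      have := Nat.lt_floor_add_one (t * ((N : ℝ) + 1))
      rw [← div_eq_mul_inv, sub_le_iff_le_add, ← add_div, le_div_iff₀ hN]
      linarith
  have h2 : Tendsto (fun N : ℕ => x + (t - (⌊t * ((N : ℝ) + 1)⌋₊ : ℝ) * ((N : ℝ) + 1)⁻¹) • v)
      atTop (𝓝 x) := by
    have := (h1.smul_const v).const_add x
    simpa using this
  filter_upwards [h2.eventually (isOpen_interior.mem_nhds hx)] with N hN
  have hN' : (0 : ℝ) < (N : ℝ) + 1 := by positivity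
  refine mem_un (j := ⌊t * ((N : ℝ) + 1)⌋₊) ?_ ?_
  · have h3 : t * ((N : ℝ) + 1) ≤ ((N + 1 : ℕ) : ℝ) := by
      push_cast
      nlinarith [ht.2]
    exact Nat.floor_le_of_le h3
  · have e : x + ((1 - t) • (0 : V) + t • v) -
        (⌊t * ((N : ℝ) + 1)⌋₊ : ℝ) • ((N : ℝ) + 1)⁻¹ • v =
        x + (t - (⌊t * ((N : ℝ) + 1)⌋₊ : ℝ) * ((N : ℝ) + 1)⁻¹) • v := by
      rw [sub_smul t, mul_smul, smul_zero, zero_add]
      abel
    show x + ((1 - t) • (0 : V) + t • v) - (⌊t * ((N : ℝ) + 1)⌋₊ : ℝ) • ((N : ℝ) + 1)⁻¹ • v ∈ K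
    rw [e]
    exact interior_subset hN

theorem volume_le_open {K : Set V} (hc : Convex ℝ K) (hi : (interior K).Nonempty) (v : V) :
    volume (K + segment ℝ 0 v) ≤ volume (interior K + segment ℝ 0 v) := by
  have hO : Convex ℝ (interior K + segment ℝ 0 v) := hc.interior.add (convex_segment _ _)
  have h1 : K + segment ℝ 0 v ⊆ closure (interior K + segment ℝ 0 v) := by
    rintro _ ⟨x, hx, z, hz, rfl⟩
    have hx' : x ∈ closure (interior K) := by
      rw [hc.closure_interior_eq_closure_of_nonempty_interior hi]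
      exact subset_closure hx
    have hcont : Continuous fun y : V => y + z := continuous_id.add continuous_const
    have hmem : ∀ y ∈ interior K, y + z ∈ interior K + segment ℝ 0 v := fun y hy =>
      add_mem_add hy hz
    exact map_mem_closure (f := fun y : V => y + z) hcont hx' hmem
  calc volume (K + segment ℝ 0 v) ≤ volume (closure (interior K + segment ℝ 0 v)) :=
        measure_mono h1
    _ = volume (interior K + segment ℝ 0 v) :=
        measure_closure_of_null_frontier (hO.addHaar_frontier _)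

theorem tendsto_un {K : Set V} (hc : Convex ℝ K)
    (hi : (interior K).Nonempty) (v : V) :
    Tendsto (fun N : ℕ => volume (un K (((N : ℝ) + 1)⁻¹ • v) (N + 1))) atTop
      (𝓝 (volume (K + segment ℝ 0 v))) := by
  let B : ℕ → Set V := fun M => ⋂ N ≥ M, un K (((N : ℝ) + 1)⁻¹ • v) (N + 1)
  have hB : Monotone B := by
    intro a b hab y hy
    simp only [B, mem_iInter] at hy ⊢
    exact fun N hN => hy N (hab.trans hN)
  have h1 := tendsto_measure_iUnion_atTop (μ := (volume : Measure V)) hB
  have h2 : volume (⋃ M, B M) = volume (K + segment ℝ 0 v) := by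
    apply le_antisymm
    · refine measure_mono (iUnion_subset fun M y hy => ?_)
      simp only [B, mem_iInter] at hy
      exact un_subset M le_rfl (hy M le_rfl)
    · refine (volume_le_open hc hi v).trans (measure_mono fun y hy => ?_)
      obtain ⟨M, hM⟩ := eventually_atTop.1 (eventually_mem hy)
      refine mem_iUnion.2 ⟨M, ?_⟩
      simp only [B, mem_iInter]
      exact hM
  rw [h2] at h1
  refine tendsto_of_tendsto_of_tendsto_of_le_of_le h1 tendsto_const_nhds (fun N => ?_)
    (fun N => measure_mono (un_subset N le_rfl))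
  refine measure_mono fun y hy => ?_
  simp only [B, mem_iInter] at hy
  exact hy N le_rfl

end Low

open Low in
/-- the volume swept by a small translation, to first order -/
theorem low {V : Type*} [NormedAddCommGroup V] [InnerProductSpace ℝ V] [FiniteDimensional ℝ V]
    [MeasurableSpace V] [BorelSpace V] {K : Set V} (hK : IsCompact K) (hc : Convex ℝ K)
    (hi : (interior K).Nonempty) (v : V) :
    Tendsto (fun k : ℕ => ((k : ℝ) + 1) *
      (volume ((fun x => x + ((k : ℝ) + 1)⁻¹ • v) '' K \ K)).toReal) atTop (𝓝 (sw K v)) := by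
  have hfin : ∀ w : V, volume (K + segment ℝ 0 w) < ⊤ := fun w =>
    (swept_compact hK w).measure_lt_top
  have hKf : volume K < ⊤ := hK.measure_lt_top
  have hphi : ∀ w : V, volume (tr K w \ K) < ⊤ := fun w =>
    (measure_mono sdiff_subset).trans_lt (by rw [volume_tr]; exact hKf)
  have h1 : Tendsto (fun N : ℕ => (volume (un K (((N : ℝ) + 1)⁻¹ • v) (N + 1))).toReal -
      (volume K).toReal) atTop (𝓝 (sw K v)) :=
    ((ENNReal.tendsto_toReal (hfin v).ne).comp (tendsto_un hc hi v)).sub_const _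
  refine tendsto_of_tendsto_of_tendsto_of_le_of_le h1 tendsto_const_nhds (fun N => ?_)
    (fun N => ?_)
  · have h2 := volume_un_le K (((N : ℝ) + 1)⁻¹ • v) (N + 1)
    have h3 : (volume (un K (((N : ℝ) + 1)⁻¹ • v) (N + 1))).toReal ≤
        (volume K).toReal + ((N : ℝ) + 1) * (volume (tr K (((N : ℝ) + 1)⁻¹ • v) \ K)).toReal := by
      have hne : ((N + 1 : ℕ) : ENNReal) * volume (tr K (((N : ℝ) + 1)⁻¹ • v) \ K) ≠ ⊤ :=
        ENNReal.mul_ne_top (ENNReal.natCast_ne_top _) (hphi _).ne
      have := ENNReal.toReal_mono (ENNReal.add_ne_top.2 ⟨hKf.ne, hne⟩) h2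
      rw [ENNReal.toReal_add hKf.ne hne, ENNReal.toReal_mul, ENNReal.toReal_natCast] at this
      push_cast at this
      exact this
    show _ - _ ≤ ((N : ℝ) + 1) * (volume (tr K (((N : ℝ) + 1)⁻¹ • v) \ K)).toReal
    linarith
  · have hN : (0 : ℝ) < (N : ℝ) + 1 := by positivity
    have h4 : (volume (tr K (((N : ℝ) + 1)⁻¹ • v) \ K)).toReal ≤
        sw K (((N : ℝ) + 1)⁻¹ • v) := by
      have h5 : tr K (((N : ℝ) + 1)⁻¹ • v) \ K ⊆
          (K + segment ℝ 0 (((N : ℝ) + 1)⁻¹ • v)) \ K := by
        rintro y ⟨hy, hy'⟩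
        exact ⟨⟨_, mem_tr.1 hy, _, right_mem_segment _ _ _, sub_add_cancel _ _⟩, hy'⟩
      have h6 : K ⊆ K + segment ℝ 0 (((N : ℝ) + 1)⁻¹ • v) := fun y hy =>
        ⟨y, hy, 0, left_mem_segment _ _ _, by simp⟩
      have h7 : volume ((K + segment ℝ 0 (((N : ℝ) + 1)⁻¹ • v)) \ K) =
          volume (K + segment ℝ 0 (((N : ℝ) + 1)⁻¹ • v)) - volume K :=
        measure_sdiff h6 hK.isClosed.measurableSet.nullMeasurableSet hKf.ne
      have h8 := ENNReal.toReal_mono ((measure_mono sdiff_subset).trans_lt (hfin _)).ne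
        (measure_mono h5)
      rw [h7, ENNReal.toReal_sub_of_le (measure_mono h6) (hfin _).ne] at h8
      exact h8
    rw [sw_smul hK hc v (by positivity)] at h4
    show ((N : ℝ) + 1) * (volume (tr K (((N : ℝ) + 1)⁻¹ • v) \ K)).toReal ≤ sw K v
    calc ((N : ℝ) + 1) * (volume (tr K (((N : ℝ) + 1)⁻¹ • v) \ K)).toReal
        ≤ ((N : ℝ) + 1) * (((N : ℝ) + 1)⁻¹ * sw K v) := by gcongr
      _ = sw K v := by
          rw [← mul_assoc, mul_inv_cancel₀ hN.ne', one_mul]

end P237
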