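import Vale.Agent.P237.Cone4

/-!
# P237: volume as the integral of the volumes of horizontal slices
-/

open MeasureTheory Set
open scoped Pointwise RealInnerProductSpace

namespace P237

theorem split_mp (d : ℕ) : MeasurePreserving (fun x : E (d + 1) => ((fst x : E d), ht x))
    volume (volume.prod volume) :=
  ((MeasurePreserving.id (volume : Measure (E d))).prod Cone4.coord_mp).comp (cat_mp d 1)

theorem pad_fst_ht {d : ℕ} (x : E (d + 1)) : pad (fst x : E d) (ht x) = x :=
  Cone4.ext_fst_ht (fst_pad _ _) (ht_pad _ _)

theorem continuous_pad {d : ℕ} : Continuous fun p : E d × ℝ => pad p.1 p.2 := by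
  refine (PiLp.continuous_toLp 2 _).comp (continuous_pi fun i => ?_)
  refine Fin.lastCases ?_ (fun j => ?_) i
  · simp only [Fin.snoc_last]
    exact continuous_snd
  · simp only [Fin.snoc_castSucc]
    fun_prop

/-- the slice formula -/
theorem slice {d : ℕ} {S : Set (E (d + 1))} (hS : MeasurableSet S) :
    volume S = ∫⁻ t : ℝ, volume {x : E d | pad x t ∈ S} := by
  have h1 : MeasurableSet {p : E d × ℝ | pad p.1 p.2 ∈ S} := continuous_pad.measurable hS
  have h2 := (split_mp d).measure_preimage h1.nullMeasurableSet
  have h3 : (fun x : E (d + 1) => ((fst x : E d), ht x)) ⁻¹' {p : E d × ℝ | pad p.1 p.2 ∈ S} =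
      S := by
    ext x
    simp [pad_fst_ht]
  rw [h3, Measure.prod_apply_symm h1] at h2
  exact h2

theorem measurable_slice {d : ℕ} {S : Set (E (d + 1))} (hS : MeasurableSet S) :
    Measurable fun t : ℝ => volume {x : E d | pad x t ∈ S} := by
  have h1 : MeasurableSet {p : E d × ℝ | pad p.1 p.2 ∈ S} := continuous_pad.measurable hS
  exact measurable_measure_prodMk_right h1

/-- the integral of `(1 - t)^d` -/
theorem lint_pow (d : ℕ) : ∫⁻ t in Icc (0 : ℝ) 1, ENNReal.ofReal ((1 - t) ^ d) =
    ENNReal.ofReal (1 / (d + 1)) := by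
  rw [← ofReal_integral_eq_lintegral_ofReal]
  · congr 1
    rw [integral_Icc_eq_integral_Ioc, ← intervalIntegral.integral_of_le zero_le_one,
      intervalIntegral.integral_comp_sub_left (fun x => x ^ d) 1, integral_pow]
    simp
  · exact (Continuous.continuousOn (by fun_prop)).integrableOn_compact isCompact_Icc
  · filter_upwards [ae_restrict_mem measurableSet_Icc] with t ht
    exact pow_nonneg (by linarith [ht.2]) _

end P237
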