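import Vale.Agent.P237.Main
import Vale.Agent.P237.Low
import Vale.Agent.P237.Cone2
import Vale.Agent.P237.Cone3
import Vale.Agent.P237.Cone4
import Vale.Agent.P237.Slice
import Vale.Agent.P237.Cone1

/-! P237: assembly of the pyramid rows. -/

open MeasureTheory Set
open scoped Pointwise RealInnerProductSpace ENNReal

namespace P237

/-- `|L| |Π L| / d^d ≤ |Π (cone L)|` -/
theorem cone_projBody {d : ℕ} (hd : 1 ≤ d) {L : Set (E d)} (hL : Body L) :
    vol L * vol (projBody L) / (d : ℝ) ^ d ≤ vol (projBody (cone L)) :=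
  have hC : Body (cone L) := cone_body hL
  have hv : vol (cone L) = vol L / (d + 1) := cone_vol hL
  have hs : ∀ S : Set (E (d + 1)), MeasurableSet S →
      volume S = ∫⁻ t : ℝ, volume {x : E d | pad x t ∈ S} := fun _ h => slice h
  c4 hd hL hC (c2 hd hL hC hv hs) (fun v w _ hs hv hw => cone3 hL hC.compact v w hs hv hw
    (fun u => low hC.compact hC.convex hC.int u))

theorem two_pow_le (n : ℕ) (hn : 1 ≤ n) : 2 * (n : ℝ) ^ n ≤ (n + 1 : ℝ) ^ n := by
  have hn0 : (0 : ℝ) < n := by exact_mod_cast hn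
  have h := one_add_mul_le_pow (a := (1 / n : ℝ)) (by have : (0 : ℝ) ≤ 1 / n := by positivity
                                                      linarith) n
  rw [mul_one_div, div_self hn0.ne'] at h
  have e : (n + 1 : ℝ) ^ n = (n : ℝ) ^ n * (1 + 1 / n) ^ n := by
    rw [← mul_pow]
    congr 1
    field_simp
  rw [e]
  have h2 : (0 : ℝ) < (n : ℝ) ^ n := by positivity
  nlinarith

/-- `|Π (cone K)| |cone K|^(-n) ≥ 2 |Π K| |K|^(1-n)`, multiplied out -/
theorem cone_ratio {n : ℕ} (hn : 1 ≤ n) {K : Set (E n)} (hK : Body K)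
    {c : ℝ} (hc : 0 ≤ c) (h : c * vol K ^ (n - 1) ≤ vol (projBody K)) :
    c * 2 * vol (cone K) ^ n ≤ vol (projBody (cone K)) := by
  have hn0 : (0 : ℝ) < n := by exact_mod_cast hn
  refine le_trans ?_ (cone_projBody hn hK)
  have hv : vol (cone K) = vol K / (n + 1) := cone_vol hK
  have pK := body_vol_pos hK
  have qK : 0 ≤ vol (projBody K) := ENNReal.toReal_nonneg
  have h1 := two_pow_le n hn
  have e : vol K ^ n = vol K * vol K ^ (n - 1) := by
    rw [← pow_succ']; congr 1; omega
  rw [hv, div_pow, e, mul_div_assoc', div_le_div_iff₀ (by positivity) (by positivity)]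
  calc c * 2 * (vol K * vol K ^ (n - 1)) * (n : ℝ) ^ n
      = (vol K * (c * vol K ^ (n - 1))) * (2 * (n : ℝ) ^ n) := by ring
    _ ≤ (vol K * vol (projBody K)) * ((n + 1 : ℝ) ^ n) := by gcongr

theorem cone_case {n : ℕ} (hn : 1 ≤ n) {K : Set (E n)} (hK : Body K)
    (h : 2 ^ n * vol K ^ (n - 1) ≤ vol (projBody K)) :
    2 ^ (n + 1) * vol (cone K) ^ (n + 1 - 1) ≤ vol (projBody (cone K)) := by
  rw [Nat.add_sub_cancel, pow_succ]
  exact cone_ratio hn hK (by positivity) h

theorem petty_one : petty 1 = 2 := by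
  have h0 : kappa 0 = 1 := by rw [Gam.kappa_eq]; simp
  have h1 : kappa 1 = 2 := by
    have := Gam.kappa_W 0
    rw [h0, Gam.W_one] at this
    simpa using this
  rw [petty]
  norm_num
  rw [h0, h1]
  norm_num

/-- Petty's inequality passes to pyramids and becomes strict. -/
theorem petty_cone {n : ℕ} (hn : 2 ≤ n) {K : Set (E n)} (hK : Body K)
    (h : petty n * vol K ^ (n - 1) ≤ vol (projBody K)) :
    petty (n + 1) * vol (cone K) ^ (n + 1 - 1) < vol (projBody (cone K)) := by
  rw [Nat.add_sub_cancel]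
  refine lt_of_lt_of_le ?_ (cone_ratio (by omega) hK (petty_pos n).le h)
  have h1 := petty_add_lt (m := n) (n := 1) (by omega) le_rfl (by omega)
  rw [petty_one] at h1
  have p := body_vol_pos (cone_body hK)
  gcongr

end P237
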