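import Vale.Agent.P237.Defs
import Vale.Agent.P237.ConeDefs

open MeasureTheory Set
open scoped RealInnerProductSpace

namespace P237

section General

variable {V : Type} [NormedAddCommGroup V] [InnerProductSpace ℝ V] [FiniteDimensional ℝ V]
  [MeasurableSpace V] [BorelSpace V]

/-- Lebesgue volume as a real number, in a Euclidean space. -/
noncomputable def gvol (K : Set V) : ℝ := (volume K).toReal

/-- The volume of the orthogonal projection of `K` to the hyperplane orthogonal to `u`. -/
noncomputable def gshadow (K : Set V) (u : V) : ℝ :=
  gvol ((ℝ ∙ u)ᗮ.orthogonalProjectionOnto '' K)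

/-- The projection body: the set with support function `gshadow K` on the unit sphere. -/
def gproj (K : Set V) : Set V := {x | ∀ u : V, ‖u‖ = 1 → ⟪x, u⟫ ≤ gshadow K u}

/-- Invertible affine maps. -/
def IsAffineIso (f : V → V) : Prop := ∃ (T : V ≃L[ℝ] V) (a : V), ∀ x, f x = a + T x

end General

/-- The volume of `K`. -/
noncomputable def volume' {n : ℕ} (K : Set (E n)) : ℝ := gvol K

/-- The volume of the projection body of `K`. -/
noncomputable def projVolume {n : ℕ} (K : Set (E n)) : ℝ := gvol (gproj K)

/-- The volume of the unit ball. -/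
noncomputable def ballVolume (n : ℕ) : ℝ := volume' {x : E n | ‖x‖ ≤ 1}

/-- The constant of Petty's conjecture. -/
noncomputable def pettyConst (n : ℕ) : ℝ := ballVolume (n - 1) ^ n * ballVolume n ^ (2 - (n : ℤ))

/-- Petty's inequality for `K`, not strict. -/
def PettyLe {n : ℕ} (K : Set (E n)) : Prop := pettyConst n * volume' K ^ (n - 1) ≤ projVolume K

/-- Petty's inequality for `K`, strict. -/
def PettyLt {n : ℕ} (K : Set (E n)) : Prop := pettyConst n * volume' K ^ (n - 1) < projVolume K

/-- The projection body of `K` is at least as large as that of a cube of the volume of `L`. -/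
def CubeLe {n : ℕ} (L K : Set (E n)) : Prop := 2 ^ n * volume' L ^ (n - 1) ≤ projVolume K

/-- The part `L` of `K` fills a large part of the volume of `K`. -/
def Fills {n : ℕ} (L K : Set (E n)) : Prop :=
  pettyConst n * volume' K ^ (n - 1) < 2 ^ n * volume' L ^ (n - 1) ∨
    4 / √(n : ℝ) * volume' K ≤ volume' L

/-- The smallest class of bodies which contains all convex bodies of dimension one and two and is
closed under direct products, pyramids and invertible affine maps. -/
inductive Good : (n : ℕ) → Set (E n) → Prop
  | one {K : Set (E 1)} : Body K → Good 1 K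
  | two {K : Set (E 2)} : Body K → Good 2 K
  | prod {m n : ℕ} {K : Set (E m)} {L : Set (E n)} : Good m K → Good n L →
      Good (m + n) (cat K L)
  | pyramid {n : ℕ} {K : Set (E n)} : Good n K → Good (n + 1) (cone K)
  | affine {n : ℕ} {K : Set (E n)} (f : E n → E n) : IsAffineIso f → Good n K →
      Good n (f '' K)

theorem volume'_eq {n : ℕ} (K : Set (E n)) : volume' K = vol K := rfl

theorem projVolume_eq {n : ℕ} (K : Set (E n)) : projVolume K = vol (projBody K) := rfl

theorem ballVolume_eq (n : ℕ) : ballVolume n = kappa n := by
  have : {x : E n | ‖x‖ ≤ 1} = Metric.closedBall (0 : E n) 1 := by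
    ext x
    simp
  rw [ballVolume, this]
  rfl

end P237
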