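import Vale.Agent.P237.Main
import Vale.Agent.P237.Cone5
import Vale.Agent.P237.Stmt

open MeasureTheory Set

namespace P237

theorem pettyConst_eq (n : ℕ) : pettyConst n = petty n := by
  rw [pettyConst, ballVolume_eq, ballVolume_eq, petty]

theorem good_bound {n : ℕ} {K : Set (E n)} (h : Good n K) :
    Body K ∧ 1 ≤ n ∧ 2 ^ n * vol K ^ (n - 1) ≤ vol (projBody K) := by
  induction h with
  | one hK =>
    refine ⟨hK, le_rfl, ?_⟩
    have := one_bound hK
    simpa using this
  | two hK =>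
    refine ⟨hK, by norm_num, ?_⟩
    have := plane hK
    simpa using this
  | @prod m n K L _ _ ihK ihL =>
    obtain ⟨hK, hm, hK2⟩ := ihK
    obtain ⟨hL, hn, hL2⟩ := ihL
    refine ⟨cat_body hK hL, by omega, ?_⟩
    refine le_trans ?_ (vol_projBody_cat hK hL)
    have pK := body_vol_pos hK
    have pL := body_vol_pos hL
    have q1 : 0 ≤ vol (projBody K) := ENNReal.toReal_nonneg
    have q2 : 0 ≤ vol (projBody L) := ENNReal.toReal_nonneg
    have e1 : vol K ^ (m + n - 1) = vol K ^ (m - 1) * vol K ^ n := by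
      rw [← pow_add]; congr 1; omega
    have e2 : vol L ^ (m + n - 1) = vol L ^ m * vol L ^ (n - 1) := by
      rw [← pow_add]; congr 1; omega
    rw [cat_vol, mul_pow, e1, e2, pow_add]
    calc 2 ^ m * 2 ^ n * (vol K ^ (m - 1) * vol K ^ n * (vol L ^ m * vol L ^ (n - 1)))
        = (vol L ^ m * (2 ^ m * vol K ^ (m - 1))) * (vol K ^ n * (2 ^ n * vol L ^ (n - 1))) := by
          ring
      _ ≤ _ := by gcongr
  | @pyramid n K _ ih =>
    obtain ⟨hK, hn, hK2⟩ := ih
    exact ⟨cone_body hK, by omega, cone_case hn hK hK2⟩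
  | @affine n K f hf _ ih =>
    obtain ⟨T, a, hT⟩ := hf
    have hfe : f = fun x => a + T x := funext hT
    subst hfe
    obtain ⟨hK, hn, hK2⟩ := ih
    refine ⟨AffE.body_image hK T a, hn, ?_⟩
    rw [AffE.vol_projBody_image (fun K hK x => mem_iff hK x) hK T a, AffE.vol_image, mul_pow]
    have := AffE.dt_pos T
    calc 2 ^ n * (AffE.dt T ^ (n - 1) * vol K ^ (n - 1))
        = AffE.dt T ^ (n - 1) * (2 ^ n * vol K ^ (n - 1)) := by ring
      _ ≤ _ := by gcongr

theorem good_cubeLe {n : ℕ} {K L : Set (E n)} (hK : Body K) (hL : Good n L) (h : L ⊆ K) :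
    CubeLe L K :=
  (good_bound hL).2.2.trans (vol_projBody_mono hK (good_bound hL).1 h)

theorem good_pettyLt {n : ℕ} (hn : 3 ≤ n) {K : Set (E n)} (hK : Good n K) :
    Body K ∧ PettyLt K := by
  have hb := good_bound hK
  refine ⟨hb.1, ?_⟩
  rw [PettyLt, pettyConst_eq]
  refine lt_of_lt_of_le ?_ hb.2.2
  have p := body_vol_pos hb.1
  have := petty_lt_two_pow hn
  show petty n * vol K ^ (n - 1) < 2 ^ n * vol K ^ (n - 1)
  gcongr

theorem good_fills {n : ℕ} (hn : 3 ≤ n) {K L : Set (E n)} (hK : Body K) (hL : Good n L)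
    (h : L ⊆ K) (hf : Fills L K) : PettyLt K := by
  have hc : 2 ^ n * vol L ^ (n - 1) ≤ vol (projBody K) := good_cubeLe hK hL h
  rw [PettyLt, pettyConst_eq]
  rcases hf with hf | hf
  · rw [pettyConst_eq] at hf
    exact lt_of_lt_of_le hf hc
  · refine lt_of_lt_of_le ?_ hc
    have p := body_vol_pos hK
    have hf' : 4 / √(n : ℝ) * vol K ≤ vol L := hf
    show petty n * vol K ^ (n - 1) < 2 ^ n * vol L ^ (n - 1)
    calc petty n * vol K ^ (n - 1) < 2 ^ n * (4 / √(n : ℝ)) ^ (n - 1) * vol K ^ (n - 1) := by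
          have := petty_lt_asy hn
          gcongr
      _ = 2 ^ n * (4 / √(n : ℝ) * vol K) ^ (n - 1) := by rw [mul_pow]; ring
      _ ≤ _ := by gcongr

theorem pettyLe_cat {m n : ℕ} (hm : 1 ≤ m) (hn : 1 ≤ n) (h : 3 ≤ m + n) {K : Set (E m)}
    {L : Set (E n)} (hK : Body K) (hL : Body L) (h1 : PettyLe K) (h2 : PettyLe L) :
    PettyLt (cat K L) := by
  rw [PettyLe, pettyConst_eq] at h1 h2
  rw [PettyLt, pettyConst_eq]
  exact petty_cat hm hn h hK hL h1 h2

theorem pettyLe_cone {n : ℕ} (hn : 2 ≤ n) {K : Set (E n)} (hK : Body K) (h1 : PettyLe K) :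
    PettyLt (cone K) := by
  rw [PettyLe, pettyConst_eq] at h1
  rw [PettyLt, pettyConst_eq]
  exact petty_cone hn hK h1

end P237
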