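import Vale.Agent.P237.GammaRow

/-! P237, row G2: `c (m + n) < c m * c n`. -/

open Real Finset

namespace P237

namespace G2

open Gam

/-- `c k = κ_{k-1}^k κ_k^{2-k}` -/
noncomputable def cc (k : ℕ) : ℝ := kappa (k - 1) ^ k * kappa k ^ (2 - (k : ℤ))

/-- `log W` -/
noncomputable def w (i : ℕ) : ℝ := log (W i)

/-- `log κ` -/
noncomputable def a (k : ℕ) : ℝ := log (kappa k)

theorem a_succ (k : ℕ) : a (k + 1) = a k + w (k + 1) := by
  rw [a, a, w, kappa_W, log_mul (kappa_pos k).ne' (W_pos (k + 1)).ne']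

theorem a_zero : a 0 = 0 := by
  rw [a, kappa_eq]
  simp

/-- second difference -/
noncomputable def sd (k : ℕ) : ℝ := w k - 2 * w (k + 1) + w (k + 2)

theorem sd_nonneg (k : ℕ) : 0 ≤ sd k := by
  have h := log_le_log (pow_pos (W_pos (k + 1)) 2) (W_cs k)
  rw [log_pow, log_mul (W_pos k).ne' (W_pos (k + 2)).ne'] at h
  rw [sd, w, w, w]
  push_cast at h
  linarith

noncomputable def F (m n : ℕ) : ℝ :=
  2 * (a m + a n - a (m + n)) - m * w m - n * w n + (m + n : ℕ) * w (m + n)

theorem F_step (n m : ℕ) : F m (n + 1) - F m n = ∑ i ∈ range m, (i + n : ℕ) * sd (i + n) := by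
  induction m with
  | zero =>
    simp only [F, range_zero, sum_empty, Nat.zero_add]
    push_cast
    ring
  | succ m ih =>
    rw [sum_range_succ, ← ih]
    have e1 : m + 1 + (n + 1) = (m + n + 1) + 1 := by ring
    have e2 : m + 1 + n = m + n + 1 := by ring
    have e3 : m + (n + 1) = m + n + 1 := by ring
    simp only [F, e1, e2, e3, a_succ, sd]
    push_cast
    ring

theorem F_eq (m n : ℕ) : F m n = ∑ j ∈ range n, ∑ i ∈ range m, (i + j : ℕ) * sd (i + j) := by
  induction n with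
  | zero =>
    simp only [F, range_zero, sum_empty, Nat.add_zero, a_zero]
    push_cast
    ring
  | succ n ih =>
    rw [sum_range_succ, ← ih, ← F_step]
    ring

theorem sd_one : 0 < sd 1 := by
  have h2 : W 2 = π / 2 := by
    have := W_succ 0
    rw [W_zero] at this
    norm_num at this
    linarith
  rw [sd, w, w, w, W_one, h2, W_three, log_div pi_pos.ne' (by norm_num),
    log_div (by norm_num) (by norm_num)]
  have h4 : log 4 = 2 * log 2 := by
    rw [show (4 : ℝ) = 2 ^ 2 by norm_num, log_pow]; push_cast; ring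
  have h3 : 2 * log π + log 3 < 5 * log 2 := by
    have h5 : 2 * log π + log 3 = log (π ^ 2 * 3) := by
      rw [log_mul (by positivity) (by norm_num), log_pow]; push_cast; ring
    have h6 : 5 * log 2 = log (2 ^ 5) := by rw [log_pow]; push_cast; ring
    rw [h5, h6]
    apply log_lt_log (by positivity)
    nlinarith [pi_lt_d2, pi_pos]
  linarith

theorem F_pos (m n : ℕ) (hm : 1 ≤ m) (hn : 1 ≤ n) (h : 3 ≤ m + n) : 0 < F m n := by
  rw [F_eq]
  have hnn : ∀ j ∈ range n, 0 ≤ ∑ i ∈ range m, ((i + j : ℕ) : ℝ) * sd (i + j) := fun j _ =>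
    sum_nonneg fun i _ => mul_nonneg (Nat.cast_nonneg _) (sd_nonneg _)
  rcases Nat.lt_or_ge 1 n with h1 | h1
  · refine lt_of_lt_of_le ?_ (single_le_sum hnn (mem_range.2 h1))
    refine lt_of_lt_of_le ?_ (single_le_sum (f := fun i => ((i + 1 : ℕ) : ℝ) * sd (i + 1))
      (fun i _ => mul_nonneg (Nat.cast_nonneg _) (sd_nonneg _)) (mem_range.2 (show 0 < m by omega)))
    simpa using sd_one
  · refine lt_of_lt_of_le ?_ (single_le_sum hnn (mem_range.2 (show 0 < n by omega)))
    refine lt_of_lt_of_le ?_ (single_le_sum (f := fun i => ((i + 0 : ℕ) : ℝ) * sd (i + 0))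
      (fun i _ => mul_nonneg (Nat.cast_nonneg _) (sd_nonneg _)) (mem_range.2 (show 1 < m by omega)))
    simpa using sd_one

theorem cc_pos (k : ℕ) : 0 < cc k :=
  mul_pos (pow_pos (kappa_pos _) _) (zpow_pos (kappa_pos _) _)

theorem log_cc (k : ℕ) (hk : 1 ≤ k) : log (cc k) = 2 * a k - k * w k := by
  obtain ⟨j, rfl⟩ : ∃ j, k = j + 1 := ⟨k - 1, by omega⟩
  rw [cc, log_mul (pow_pos (kappa_pos _) _).ne' (zpow_pos (kappa_pos _) _).ne', log_pow, log_zpow,
    Nat.add_sub_cancel]
  have h1 : log (kappa j) = a j := rfl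
  have h2 : log (kappa (j + 1)) = a (j + 1) := rfl
  rw [h1, h2, a_succ]
  push_cast
  ring

/-- `c (m + n) < c m * c n` for `m, n ≥ 1`, not both `1` -/
theorem cc_lt (m n : ℕ) (hm : 1 ≤ m) (hn : 1 ≤ n) (h : 3 ≤ m + n) : cc (m + n) < cc m * cc n := by
  rw [← log_lt_log_iff (cc_pos _) (mul_pos (cc_pos _) (cc_pos _)),
    log_mul (cc_pos _).ne' (cc_pos _).ne', log_cc _ hm, log_cc _ hn, log_cc _ (by omega)]
  have := F_pos m n hm hn h
  rw [F] at this
  linarith

end G2

end P237
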