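import Vale.Agent.P237.Defs

open MeasureTheory Set Real

namespace P237

namespace Gam

theorem kappa_eq (n : ℕ) : kappa n = √π ^ n / Gamma ((n : ℝ) / 2 + 1) := by
  unfold kappa vol
  rcases Nat.eq_zero_or_pos n with rfl | hn
  · have h : (Metric.closedBall (0 : E 0) 1) = univ := by
      ext x; simp [Subsingleton.elim x 0]
    rw [h]
    have h := (PiLp.volume_preserving_ofLp (Fin 0)).measure_preimage
      (MeasurableSet.univ (α := Fin 0 → ℝ)).nullMeasurableSet
    rw [preimage_univ] at h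
    rw [h, ← pi_univ univ, volume_pi_pi]
    simp
  · have : Nonempty (Fin n) := ⟨⟨0, hn⟩⟩
    rw [EuclideanSpace.volume_closedBall]
    simp only [Fintype.card_fin, ENNReal.ofReal_one, one_pow, one_mul]
    rw [ENNReal.toReal_ofReal]
    positivity

theorem kappa_pos (n : ℕ) : 0 < kappa n := by
  rw [kappa_eq]
  have : 0 < Gamma ((n : ℝ) / 2 + 1) := Gamma_pos_of_pos (by positivity)
  positivity

theorem kappa_succ (n : ℕ) : kappa (n + 2) = kappa n * (2 * π / (n + 2)) := by
  rw [kappa_eq, kappa_eq]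
  have h1 : ((n + 2 : ℕ) : ℝ) / 2 + 1 = ((n : ℝ) / 2 + 1) + 1 := by push_cast; ring
  rw [h1, Gamma_add_one (by positivity)]
  have h2 : 0 < Gamma ((n : ℝ) / 2 + 1) := Gamma_pos_of_pos (by positivity)
  have h3 : √π ^ (n + 2) = √π ^ n * π := by
    rw [pow_add, sq_sqrt pi_pos.le]
  rw [h3]
  field_simp

/-- Wallis integrals -/
noncomputable def W (n : ℕ) : ℝ := ∫ x in (0 : ℝ)..π, sin x ^ n

theorem W_pos (n : ℕ) : 0 < W n := integral_sin_pow_pos n

theorem W_succ (n : ℕ) : (n + 2) * W (n + 2) = (n + 1) * W n := by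
  unfold W
  rw [integral_sin_pow]
  simp
  field_simp

theorem W_anti (n : ℕ) : W (n + 1) ≤ W n := integral_sin_pow_succ_le n

theorem W_one : W 1 = 2 := by
  unfold W; simp [integral_sin]; norm_num

theorem W_zero : W 0 = π := by
  unfold W; simp

theorem W_cs (n : ℕ) : W (n + 1) ^ 2 ≤ W n * W (n + 2) := by
  have h : ∀ t : ℝ, 0 ≤ t ^ 2 * W n - 2 * t * W (n + 1) + W (n + 2) := by
    intro t
    have h1 : t ^ 2 * W n - 2 * t * W (n + 1) + W (n + 2)
        = ∫ x in (0 : ℝ)..π, sin x ^ n * (t - sin x) ^ 2 := by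
      unfold W
      have hi : ∀ k : ℕ, IntervalIntegrable (fun x => sin x ^ k) volume 0 π := fun k =>
        (continuous_sin.pow k).intervalIntegrable _ _
      rw [← intervalIntegral.integral_const_mul, ← intervalIntegral.integral_const_mul,
        ← intervalIntegral.integral_sub ((hi _).const_mul _) ((hi _).const_mul _),
        ← intervalIntegral.integral_add (((hi _).const_mul _).sub ((hi _).const_mul _)) (hi _)]
      congr 1
      ext x
      ring
    rw [h1]
    apply intervalIntegral.integral_nonneg pi_pos.le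
    intro x hx
    have := sin_nonneg_of_mem_Icc hx
    positivity
  have h2 := h (W (n + 1) / W n)
  have h3 := W_pos n
  have h4 : (W (n + 1) / W n) ^ 2 * W n - 2 * (W (n + 1) / W n) * W (n + 1) + W (n + 2)
      = (W n * W (n + 2) - W (n + 1) ^ 2) / W n := by
    field_simp
    ring
  rw [h4, le_div_iff₀ h3] at h2
  linarith

theorem kappa_W (n : ℕ) : kappa (n + 1) = kappa n * W (n + 1) := by
  induction n using Nat.twoStepInduction with
  | zero =>
    have h0 : kappa 0 = 1 := by rw [kappa_eq]; simp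
    have h1 : kappa 1 = 2 := by
      rw [kappa_eq]
      have : ((1 : ℕ) : ℝ) / 2 + 1 = 1 / 2 + 1 := by norm_num
      rw [this, Gamma_add_one (by norm_num), Gamma_one_half_eq]
      have : 0 < √π := by positivity
      field_simp
    rw [h0, h1, W_one]; norm_num
  | one =>
    have h1 : kappa 1 = 2 := by
      rw [kappa_eq]
      have : ((1 : ℕ) : ℝ) / 2 + 1 = 1 / 2 + 1 := by norm_num
      rw [this, Gamma_add_one (by norm_num), Gamma_one_half_eq]
      have : 0 < √π := by positivity
      field_simp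
    have h0 : kappa 0 = 1 := by rw [kappa_eq]; simp
    have h2 := kappa_succ 0
    have h3 := W_succ 0
    rw [W_zero] at h3
    norm_num at h2 h3
    rw [h1, show (1 + 1) = 2 from rfl, h2, h0]
    linarith
  | more n ih _ =>
    have h1 := kappa_succ (n + 1)
    have h2 := kappa_succ n
    have h3 := W_succ (n + 1)
    have e1 : n + 2 + 1 = n + 1 + 2 := by ring
    rw [e1, h1, h2, ih]
    push_cast at h3 ⊢
    have h4 : W (n + 1 + 2) = (n + 2) * W (n + 1) / (n + 3) := by
      field_simp
      linarith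
    rw [h4]
    field_simp
    ring

theorem W_three : W 3 = 4 / 3 := by
  have := W_succ 1
  rw [W_one] at this
  norm_num at this
  linarith

theorem W_four : W 4 = 3 * π / 8 := by
  have h1 := W_succ 0
  have h2 := W_succ 2
  rw [W_zero] at h1
  norm_num at h1 h2
  linarith

theorem W_le_four (n : ℕ) (hn : 4 ≤ n) : W n ≤ 3 * π / 8 := by
  induction n, hn using Nat.le_induction with
  | base => exact W_four.le
  | succ n _ ih => exact (W_anti n).trans ih

theorem key (n : ℕ) (hn : 3 ≤ n) : W n ^ n ≤ 2 * W (n + 1) ^ (n - 1) := by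
  rcases Nat.eq_or_lt_of_le hn with h | h
  · subst h
    rw [W_three, W_four]
    have := pi_gt_three
    norm_num
    nlinarith
  · obtain ⟨m, rfl⟩ : ∃ m, n = m + 1 := ⟨n - 1, by omega⟩
    have hW := W_pos (m + 1)
    have hW' := W_pos (m + 1 + 1)
    have hr : W (m + 1) ^ 2 ≤ (1 + 1 / (m + 1 : ℝ)) * W (m + 1 + 1) ^ 2 := by
      have h1 := W_cs m
      have h2 := W_succ m
      have h3 : W m = (m + 2) / (m + 1) * W (m + 2) := by
        field_simp
        linarith
      rw [h3] at h1
      refine h1.trans (le_of_eq ?_)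
      rw [show m + 1 + 1 = m + 2 from rfl]
      field_simp
      ring
    have he : (1 + 1 / (m + 1 : ℝ)) ^ m ≤ 2.7182818286 := by
      have h1 : (1 + 1 / (m + 1 : ℝ)) ^ m ≤ exp 1 := by
        have h2 : 1 + 1 / (m + 1 : ℝ) ≤ exp (1 / (m + 1)) := by
          have := add_one_le_exp (1 / (m + 1 : ℝ))
          linarith
        calc (1 + 1 / (m + 1 : ℝ)) ^ m ≤ exp (1 / (m + 1)) ^ m := by gcongr
          _ = exp (m * (1 / (m + 1))) := by rw [← exp_nat_mul]
          _ ≤ exp 1 := by
            apply exp_le_exp.2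
            rw [mul_one_div, div_le_one (by positivity)]
            linarith
      exact h1.trans exp_one_lt_d9.le
    have h4 : W (m + 1) ^ 2 ≤ 1.4 := by
      have h5 := W_le_four (m + 1) (by omega)
      have h6 := pi_lt_d2
      have h7 : W (m + 1) ≤ 1.182 := by linarith
      nlinarith
    have hsq : (W (m + 1) ^ (m + 1)) ^ 2 ≤ (2 * W (m + 1 + 1) ^ (m + 1 - 1)) ^ 2 := by
      rw [Nat.add_sub_cancel]
      calc (W (m + 1) ^ (m + 1)) ^ 2 = W (m + 1) ^ 2 * (W (m + 1) ^ 2) ^ m := by ring
        _ ≤ W (m + 1) ^ 2 * ((1 + 1 / (m + 1 : ℝ)) * W (m + 1 + 1) ^ 2) ^ m := by gcongr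
        _ = W (m + 1) ^ 2 * (1 + 1 / (m + 1 : ℝ)) ^ m * (W (m + 1 + 1) ^ 2) ^ m := by
            rw [mul_pow]; ring
        _ ≤ 1.4 * 2.7182818286 * (W (m + 1 + 1) ^ 2) ^ m := by gcongr
        _ ≤ 4 * (W (m + 1 + 1) ^ 2) ^ m := by
            gcongr
            norm_num
        _ = (2 * W (m + 1 + 1) ^ m) ^ 2 := by ring
    exact (pow_le_pow_iff_left₀ (by positivity) (by positivity) two_ne_zero).1 hsq

end Gam

open Gam in
/-- `κ_(n-1)^n < 2^n κ_n^(n-2)` for `n ≥ 3` -/
theorem kappa_lt (n : ℕ) (hn : 3 ≤ n) : kappa (n - 1) ^ n < 2 ^ n * kappa n ^ (n - 2) := by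
  induction n, hn using Nat.le_induction with
  | base =>
    have h2 : kappa 2 = π := by
      have h0 : kappa 0 = 1 := by rw [kappa_eq]; simp
      have := kappa_succ 0
      rw [h0] at this
      norm_num at this
      exact this
    have h3 : kappa 3 = π * (4 / 3) := by
      have := kappa_W 2
      rw [h2, W_three] at this
      exact this
    norm_num
    rw [h2, h3]
    have h4 := pi_lt_d2
    have h5 := pi_gt_three
    have : π ^ 2 < 10 := by nlinarith
    nlinarith
  | succ n hn ih =>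
    obtain ⟨m, rfl⟩ : ∃ m, n = m + 2 := ⟨n - 2, by omega⟩
    have e1 : m + 2 - 1 = m + 1 := by omega
    have e2 : m + 2 - 2 = m := by omega
    have e3 : m + 2 + 1 - 1 = m + 2 := by omega
    have e4 : m + 2 + 1 - 2 = m + 1 := by omega
    rw [e1, e2] at ih
    rw [e3, e4]
    have hk := key (m + 2) hn
    rw [e1] at hk
    have ha := kappa_pos (m + 1)
    have hb := kappa_pos (m + 2)
    have hW := W_pos (m + 2)
    have hba : kappa (m + 2) = kappa (m + 1) * W (m + 2) := kappa_W (m + 1)
    have hcb : kappa (m + 2 + 1) = kappa (m + 2) * W (m + 2 + 1) := kappa_W (m + 2)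
    calc kappa (m + 2) ^ (m + 2 + 1) = kappa (m + 2) * kappa (m + 2) ^ (m + 2) := by ring
      _ = kappa (m + 2) * (kappa (m + 1) ^ (m + 2) * W (m + 2) ^ (m + 2)) := by
          rw [← mul_pow, ← hba]
      _ < kappa (m + 2) * ((2 ^ (m + 2) * kappa (m + 2) ^ m) * W (m + 2) ^ (m + 2)) := by
          gcongr
      _ ≤ kappa (m + 2) * ((2 ^ (m + 2) * kappa (m + 2) ^ m) *
            (2 * W (m + 2 + 1) ^ (m + 1))) := by
          gcongr
      _ = 2 ^ (m + 2 + 1) * (kappa (m + 2) * W (m + 2 + 1)) ^ (m + 1) := by ring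
      _ = 2 ^ (m + 2 + 1) * kappa (m + 2 + 1) ^ (m + 1) := by rw [← hcb]

end P237
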