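import Vale.Agent.P237.Defs

/-!
P237, row ONE: the projection body of a segment.
-/

open MeasureTheory Set
open scoped Pointwise RealInnerProductSpace

namespace P237

namespace One

/-- the shadow of a one-dimensional convex body is a point, of volume one -/
theorem shadow_ge {K : Set (E 1)} (hK : Body K) {u : E 1} (hu : ‖u‖ = 1) : 1 ≤ shadow K u := by
  have hu0 : u ≠ 0 := by
    intro h
    rw [h, norm_zero] at hu
    exact zero_ne_one hu
  have : Fact (Module.finrank ℝ (E 1) = 0 + 1) := ⟨by simp⟩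
  let b := OrthonormalBasis.fromOrthogonalSpanSingleton (𝕜 := ℝ) 0 hu0
  have hfr : Module.finrank ℝ (ℝ ∙ u)ᗮ = 0 := Submodule.finrank_orthogonal_span_singleton hu0
  have : Subsingleton (ℝ ∙ u)ᗮ := Module.finrank_zero_iff.1 hfr
  obtain ⟨x, hx⟩ := hK.int.mono interior_subset
  have himg : (ℝ ∙ u)ᗮ.orthogonalProjectionOnto '' K = univ :=
    eq_univ_of_forall fun y => ⟨x, hx, Subsingleton.elim _ _⟩
  have h1 : (1 : ENNReal) ≤ volume ((ℝ ∙ u)ᗮ.orthogonalProjectionOnto '' K) := by
    rw [himg, ← b.volume_parallelepiped]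
    exact measure_mono (subset_univ _)
  have h2 : volume ((ℝ ∙ u)ᗮ.orthogonalProjectionOnto '' K) ≠ ⊤ :=
    (hK.compact.image (ContinuousLinearMap.continuous _)).measure_lt_top.ne
  unfold shadow
  have := ENNReal.toReal_mono h2 h1
  simpa using this

theorem inner_one (x u : E 1) : ⟪x, u⟫ = x 0 * u 0 := by
  simp [PiLp.inner_apply, mul_comm]

theorem bounded (K : Set (E 1)) : ∃ M : ℝ, projBody K ⊆ Metric.closedBall 0 M := by
  let e : E 1 := EuclideanSpace.single 0 1
  have he : ‖e‖ = 1 := by simp [e]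
  have he' : ‖-e‖ = 1 := by rw [norm_neg, he]
  refine ⟨max (shadow K e) (shadow K (-e)), fun x hx => ?_⟩
  have h1 := hx e he
  have h2 := hx (-e) he'
  rw [inner_one] at h1 h2
  have e0 : e 0 = 1 := by simp [e]
  have e1 : (-e) 0 = -1 := by simp [e]
  rw [e0, mul_one] at h1
  rw [e1] at h2
  rw [mem_closedBall_zero_iff, EuclideanSpace.norm_eq]
  simp only [Finset.univ_unique, Fin.default_eq_zero, Fin.isValue, Real.norm_eq_abs, sq_abs,
    Finset.sum_singleton, Real.sqrt_sq_eq_abs]
  rw [abs_le]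
  constructor
  · have := le_max_right (shadow K e) (shadow K (-e))
    linarith
  · exact h1.trans (le_max_left _ _)

end One

/-- row ONE -/
theorem one_bound {K : Set (E 1)} (hK : Body K) : 2 ≤ vol (projBody K) := by
  have hsub : Metric.closedBall (0 : E 1) 1 ⊆ projBody K := by
    intro x hx u hu
    have h1 : ‖x‖ ≤ 1 := mem_closedBall_zero_iff.1 hx
    calc ⟪x, u⟫ ≤ ‖x‖ * ‖u‖ := real_inner_le_norm x u
      _ ≤ 1 := by rw [hu, mul_one]; exact h1
      _ ≤ shadow K u := One.shadow_ge hK hu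
  obtain ⟨M, hM⟩ := One.bounded K
  have hfin : volume (projBody K) ≠ ⊤ :=
    ne_top_of_le_ne_top (isCompact_closedBall (0 : E 1) M).measure_lt_top.ne (measure_mono hM)
  have hball : (volume (Metric.closedBall (0 : E 1) 1)).toReal = 2 := by
    rw [EuclideanSpace.volume_closedBall]
    have hG : Real.Gamma ((1 : ℝ) / 2 + 1) = Real.sqrt Real.pi / 2 := by
      rw [Real.Gamma_add_one (by norm_num), Real.Gamma_one_half_eq]
      ring
    have hpi : 0 < Real.sqrt Real.pi := Real.sqrt_pos.2 Real.pi_pos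
    simp only [Fintype.card_fin, Nat.cast_one, pow_one, ENNReal.ofReal_one, one_mul]
    rw [hG, div_div_eq_mul_div, mul_comm, mul_div_assoc, div_self hpi.ne', mul_one]
    simp
  unfold vol
  rw [← hball]
  exact ENNReal.toReal_mono hfin (measure_mono hsub)

end P237
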