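import Mathlib
import Vale.Agent.P237.Defs
import Vale.Agent.P230.BMAdd

/-! P237 [PLANE]: every planar convex body has `4 |K| ≤ |Π K|`. -/

open MeasureTheory Set
open scoped Pointwise RealInnerProductSpace ENNReal

namespace P237

namespace Plane

/-- the rotation by ninety degrees as a linear map -/
noncomputable def Jl : E 2 →ₗ[ℝ] E 2 where
  toFun x := !₂[-x 1, x 0]
  map_add' x y := by
    ext i; fin_cases i
    · simp; ring
    · simp
  map_smul' c x := by
    ext i; fin_cases i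
    · simp
    · simp

theorem Jl_norm (x : E 2) : ‖Jl x‖ = ‖x‖ := by
  rw [EuclideanSpace.norm_eq, EuclideanSpace.norm_eq]
  congr 1
  simp [Fin.sum_univ_two, Jl]
  ring

/-- the rotation by ninety degrees -/
noncomputable def J : E 2 ≃ₗᵢ[ℝ] E 2 :=
  LinearIsometry.toLinearIsometryEquiv ⟨Jl, Jl_norm⟩ rfl

theorem J_apply (x : E 2) : J x = !₂[-x 1, x 0] := rfl

theorem inner_two (x y : E 2) : ⟪x, y⟫ = x 0 * y 0 + x 1 * y 1 := by
  simp [PiLp.inner_apply, Fin.sum_univ_two, mul_comm]

theorem J_inner (x u : E 2) : ⟪J x, u⟫ = -⟪x, J u⟫ := by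
  rw [inner_two, inner_two, J_apply, J_apply]
  simp

theorem J_self (u : E 2) : ⟪u, J u⟫ = 0 := by
  rw [inner_two, J_apply]
  simp [mul_comm]

theorem vol_image {V W : Type*} [NormedAddCommGroup V] [InnerProductSpace ℝ V]
    [FiniteDimensional ℝ V] [MeasurableSpace V] [BorelSpace V] [NormedAddCommGroup W]
    [InnerProductSpace ℝ W] [FiniteDimensional ℝ W] [MeasurableSpace W] [BorelSpace W]
    (e : V ≃ₗᵢ[ℝ] W) {S : Set V} (hS : IsCompact S) : volume (e '' S) = volume S := by
  have h := e.measurePreserving.measure_preimage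
    (hS.image e.continuous).measurableSet.nullMeasurableSet
  rw [preimage_image_eq _ e.injective] at h
  exact h.symm

/-- the projection image contains the projected segment -/
theorem shadow_ge {K : Set (E 2)} (hK : Convex ℝ K) (hc : IsCompact K) {a b u : E 2}
    (ha : a ∈ K) (hb : b ∈ K) (hu : ‖u‖ = 1) :
    ‖(ℝ ∙ u)ᗮ.orthogonalProjectionOnto (a - b)‖ ≤ shadow K u := by
  have : Fact (Module.finrank ℝ (E 2) = 1 + 1) := ⟨by simp⟩
  have hu0 : u ≠ 0 := by
    intro h; rw [h] at hu; simp at hu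
  have hfin : Module.finrank ℝ (ℝ ∙ u)ᗮ = 1 :=
    Submodule.finrank_orthogonal_span_singleton hu0
  set P := (ℝ ∙ u)ᗮ.orthogonalProjectionOnto with hP
  let e : (ℝ ∙ u)ᗮ ≃ₗᵢ[ℝ] ℝ :=
    (stdOrthonormalBasis ℝ (ℝ ∙ u)ᗮ).equiv (stdOrthonormalBasis ℝ ℝ)
      (finCongr (hfin.trans (Module.finrank_self ℝ).symm))
  have hPc : IsCompact (P '' K) := hc.image P.continuous
  have hvol : volume (P '' K) = volume (e '' (P '' K)) := (vol_image e hPc).symm
  have hconv : Convex ℝ (e '' (P '' K)) :=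
    (hK.linear_image P.toLinearMap).linear_image e.toLinearEquiv.toLinearMap
  have hsub : uIcc (e (P b)) (e (P a)) ⊆ e '' (P '' K) := by
    rw [← segment_eq_uIcc]
    exact hconv.segment_subset ⟨_, ⟨_, hb, rfl⟩, rfl⟩ ⟨_, ⟨_, ha, rfl⟩, rfl⟩
  have h1 : ENNReal.ofReal ‖P (a - b)‖ ≤ volume (P '' K) := by
    rw [hvol]
    refine le_trans (le_of_eq ?_) (measure_mono hsub)
    rw [Real.volume_interval, ← e.norm_map, map_sub, map_sub, Real.norm_eq_abs]
  have h2 := ENNReal.toReal_mono hPc.measure_lt_top.ne h1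
  rw [ENNReal.toReal_ofReal (norm_nonneg _)] at h2
  exact h2

theorem J_mem {K : Set (E 2)} (hK : Convex ℝ K) (hc : IsCompact K) {a b : E 2}
    (ha : a ∈ K) (hb : b ∈ K) : J (a - b) ∈ projBody K := by
  intro u hu
  refine le_trans ?_ (shadow_ge hK hc ha hb hu)
  rw [J_inner]
  have hJu : J u ∈ (ℝ ∙ u)ᗮ := by
    rw [Submodule.mem_orthogonal_singleton_iff_inner_right]
    exact J_self u
  have h2 : ⟪a - b, J u⟫ = ⟪((ℝ ∙ u)ᗮ.orthogonalProjectionOnto (a - b) : E 2), J u⟫ :=
    (Submodule.inner_orthogonalProjectionOnto_eq_of_mem_right (K := (ℝ ∙ u)ᗮ)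
      ⟨J u, hJu⟩ (a - b)).symm
  rw [h2]
  refine (neg_le_abs _).trans ((abs_real_inner_le_norm _ _).trans ?_)
  rw [J.norm_map, hu, mul_one]
  rfl

theorem finite {n : ℕ} (K : Set (E n)) : volume (projBody K) < ∞ := by
  have hb : Bornology.IsBounded (projBody K) := by
    set M : Fin n → ℝ := fun i => max (shadow K (EuclideanSpace.single i (1 : ℝ)))
      (shadow K (-EuclideanSpace.single i (1 : ℝ))) with hM
    have hle : ∀ x ∈ projBody K, ∀ i, |x i| ≤ M i := by
      intro x hx i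
      have h1 := hx (EuclideanSpace.single i (1 : ℝ)) (by simp)
      have h2 := hx (-EuclideanSpace.single i (1 : ℝ)) (by simp)
      rw [inner_neg_right] at h2
      simp only [EuclideanSpace.inner_single_right, one_mul, conj_trivial] at h1 h2
      rw [abs_le]
      constructor
      · have := le_max_right (shadow K (EuclideanSpace.single i (1 : ℝ)))
          (shadow K (-EuclideanSpace.single i (1 : ℝ)))
        simp only [hM]
        linarith
      · exact h1.trans (le_max_left _ _)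
    refine (Metric.isBounded_closedBall (x := (0 : E n))
      (r := Real.sqrt (∑ i, (M i) ^ 2))).subset ?_
    intro x hx
    rw [mem_closedBall_zero_iff, EuclideanSpace.norm_eq]
    refine Real.sqrt_le_sqrt (Finset.sum_le_sum fun i _ => ?_)
    rw [Real.norm_eq_abs]
    exact pow_le_pow_left₀ (abs_nonneg _) (hle x hx i) 2
  exact hb.measure_lt_top

theorem sub_compact {n : ℕ} {K : Set (E n)} (hc : IsCompact K) : IsCompact (K - K) := by
  rw [sub_eq_add_neg]
  exact hc.add hc.neg

theorem vol_ofLp {n : ℕ} {S : Set (E n)} (hS : IsCompact S) :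
    volume ((WithLp.ofLp : E n → (Fin n → ℝ)) '' S) = volume S := by
  have hc : Continuous (WithLp.ofLp : E n → (Fin n → ℝ)) := PiLp.continuous_ofLp 2 _
  have h := (PiLp.volume_preserving_ofLp (Fin n)).measure_preimage
    (hS.image hc).measurableSet.nullMeasurableSet
  rw [preimage_image_eq _ (WithLp.ofLp_injective 2)] at h
  exact h.symm

theorem bm {K : Set (E 2)} (hc : IsCompact K) : 4 * volume K ≤ volume (K - K) := by
  have hcl : Continuous (WithLp.ofLp : E 2 → (Fin 2 → ℝ)) := PiLp.continuous_ofLp 2 _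
  have hKK : IsCompact (K - K) := sub_compact hc
  have hD : IsCompact ((1 / 2 : ℝ) • (K - K)) := hKK.smul _
  have h := Vale.Agent.P230.BMAddAux.bm_mul (hc.image hcl) (hc.neg.image hcl) (hD.image hcl)
    (t := 1 / 2) (by norm_num) (by norm_num) (by
      rintro _ ⟨a, ha, rfl⟩ _ ⟨b, hb, rfl⟩
      refine ⟨(1 / 2 : ℝ) • (a - -b), ⟨a - -b, ⟨a, ha, -b, hb, rfl⟩, rfl⟩, ?_⟩
      ext i
      simp only [WithLp.ofLp_smul, WithLp.ofLp_sub, WithLp.ofLp_neg, Pi.smul_apply, Pi.add_apply,
        Pi.sub_apply, Pi.neg_apply, smul_eq_mul]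
      ring)
  rw [vol_ofLp hc, vol_ofLp hc.neg, vol_ofLp hD, Measure.measure_neg, Measure.addHaar_smul,
    ← ENNReal.rpow_add_of_nonneg _ _ (by norm_num) (by norm_num)] at h
  norm_num at h
  have h4 : (4 : ℝ≥0∞) * volume K ≤ 4 * (ENNReal.ofReal (1 / 4) * volume (K - K)) := by
    gcongr
  refine h4.trans (le_of_eq ?_)
  rw [← mul_assoc]
  have h5 : (4 : ℝ≥0∞) * ENNReal.ofReal (1 / 4) = 1 := by
    have : (4 : ℝ≥0∞) = ENNReal.ofReal 4 := by simp
    rw [this, ← ENNReal.ofReal_mul (by norm_num)]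
    norm_num
  rw [h5, one_mul]

end Plane

open Plane in
theorem plane {K : Set (E 2)} (hK : Body K) : 2 ^ 2 * vol K ≤ vol (projBody K) := by
  have h1 : J '' (K - K) ⊆ projBody K := by
    rintro _ ⟨_, ⟨a, ha, b, hb, rfl⟩, rfl⟩
    exact J_mem hK.convex hK.compact ha hb
  have h2 : 4 * volume K ≤ volume (projBody K) :=
    (bm hK.compact).trans ((vol_image J (sub_compact hK.compact)).symm.le.trans
      (measure_mono h1))
  have h3 := ENNReal.toReal_mono (Plane.finite K).ne h2
  rw [ENNReal.toReal_mul] at h3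
  unfold vol
  norm_num at h3 ⊢
  exact h3

end P237
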