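import Mathlib

/-!
# P237, row PRODF: the volume of a product swept along a diagonal segment
-/

open MeasureTheory Set
open scoped Pointwise

namespace P237

namespace ProdF

theorem mem_add_seg {X : Type*} [AddCommGroup X] [Module ℝ X] {A : Set X} {x y : X} :
    y ∈ A + segment ℝ 0 x ↔ ∃ t ∈ Icc (0 : ℝ) 1, y - t • x ∈ A := by
  rw [segment_eq_image']
  constructor
  · rintro ⟨a, ha, _, ⟨t, ht, rfl⟩, rfl⟩
    refine ⟨t, ht, ?_⟩
    simpa using ha
  · rintro ⟨t, ht, h⟩
    refine ⟨y - t • x, h, t • x, ⟨t, ht, by simp⟩, by simp⟩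

theorem compact_add_seg {X : Type*} [NormedAddCommGroup X] [NormedSpace ℝ X] {A : Set X}
    (hA : IsCompact A) (x : X) : IsCompact (A + segment ℝ 0 x) := by
  refine hA.add ?_
  rw [segment_eq_image']
  exact isCompact_Icc.image (by fun_prop)

/-- The times at which the moving body is over `z`. -/
def I {V : Type*} [AddCommGroup V] [Module ℝ V] (K : Set V) (u z : V) : Set ℝ :=
  {t | t ∈ Icc (0 : ℝ) 1 ∧ z - t • u ∈ K}

theorem I_convex {V : Type*} [AddCommGroup V] [Module ℝ V] {K : Set V} (hK : Convex ℝ K)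
    (u z : V) : Convex ℝ (I K u z) := by
  intro s hs t ht a b ha hb hab
  refine ⟨(convex_Icc (0 : ℝ) 1) hs.1 ht.1 ha hb hab, ?_⟩
  have := hK hs.2 ht.2 ha hb hab
  have h2 : a • (z - s • u) + b • (z - t • u) = z - (a • s + b • t) • u := by
    have hz : z = (a + b) • z := by rw [hab, one_smul]
    rw [smul_sub, smul_sub]
    nth_rewrite 3 [hz]
    simp only [smul_eq_mul, add_smul, mul_smul]
    abel
  rwa [h2] at this

theorem I_closed {V : Type*} [NormedAddCommGroup V] [NormedSpace ℝ V] {K : Set V}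
    (hK : IsClosed K) (u z : V) : IsClosed (I K u z) :=
  isClosed_Icc.inter (hK.preimage (by fun_prop))

theorem I_eq {V : Type*} [NormedAddCommGroup V] [NormedSpace ℝ V] {K : Set V}
    (hK : IsClosed K) (hKc : Convex ℝ K) (u z : V) (hne : (I K u z).Nonempty) :
    ∃ α β : ℝ, α ≤ β ∧ I K u z = Icc α β := by
  have hcomp : IsCompact (I K u z) :=
    isCompact_Icc.of_isClosed_subset (I_closed hK u z) (fun t ht => ht.1)
  have hconn : IsConnected (I K u z) := ⟨hne, (I_convex hKc u z).isPreconnected⟩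
  have h := eq_Icc_of_connected_compact hconn hcomp
  refine ⟨sInf (I K u z), sSup (I K u z), ?_, h⟩
  obtain ⟨t, ht⟩ := hne
  rw [h] at ht
  exact ht.1.trans ht.2

theorem mem_S {V W : Type*} [AddCommGroup V] [Module ℝ V] [AddCommGroup W] [Module ℝ W]
    {K : Set V} {L : Set W} {u : V} {v : W} {z : V} {w : W} :
    (z, w) ∈ K ×ˢ L + segment ℝ 0 (u, v) ↔ ∃ t ∈ I K u z, w - t • v ∈ L := by
  rw [mem_add_seg]
  constructor
  · rintro ⟨t, ht, h⟩
    simp only [Prod.smul_mk, Prod.mk_sub_mk, mem_prod] at h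
    exact ⟨t, ⟨ht, h.1⟩, h.2⟩
  · rintro ⟨t, ht, h⟩
    refine ⟨t, ht.1, ?_⟩
    simp only [Prod.smul_mk, Prod.mk_sub_mk, mem_prod]
    exact ⟨ht.2, h⟩

section

variable {V W : Type*}
  [NormedAddCommGroup V] [NormedSpace ℝ V] [FiniteDimensional ℝ V] [MeasureSpace V] [BorelSpace V]
  [(volume : Measure V).IsAddHaarMeasure]
  [NormedAddCommGroup W] [NormedSpace ℝ W] [FiniteDimensional ℝ W] [MeasureSpace W] [BorelSpace W]
  [(volume : Measure W).IsAddHaarMeasure]

set_option linter.unusedSectionVars false in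
/-- The fibres. -/
theorem fibre {K : Set V} {L : Set W} (hK : IsCompact K) (hKc : Convex ℝ K) (hL : IsCompact L)
    (u : V) (v : W) {c : ℝ} (hc : 0 ≤ c)
    (hv : ∀ s : ℝ, 0 ≤ s → (volume (L + segment ℝ 0 (s • v))).toReal = (volume L).toReal + s * c)
    (z : V) :
    volume (Prod.mk z ⁻¹' (K ×ˢ L + segment ℝ 0 (u, v))) =
      (K + segment ℝ 0 u).indicator (fun _ => volume L) z
        + ENNReal.ofReal c * volume (I K u z) := by
  classical
  by_cases hne : (I K u z).Nonempty
  · have hz : z ∈ K + segment ℝ 0 u := by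
      obtain ⟨t, ht⟩ := hne
      exact mem_add_seg.2 ⟨t, ht.1, ht.2⟩
    rw [indicator_of_mem hz]
    obtain ⟨α, β, hαβ, hI⟩ := I_eq hK.isClosed hKc u z hne
    have hset : Prod.mk z ⁻¹' (K ×ˢ L + segment ℝ 0 (u, v)) =
        (fun w => w + (-(α • v))) ⁻¹' (L + segment ℝ 0 ((β - α) • v)) := by
      ext w
      rw [mem_preimage, mem_S, mem_preimage, mem_add_seg, hI]
      constructor
      · rintro ⟨t, ht, h⟩
        rw [← segment_eq_Icc hαβ, segment_eq_image'] at ht
        obtain ⟨θ, hθ, rfl⟩ := ht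
        refine ⟨θ, hθ, ?_⟩
        have : w + -(α • v) - θ • (β - α) • v = w - (α + θ • (β - α)) • v := by
          rw [add_smul, smul_eq_mul, smul_smul]
          abel
        rwa [this]
      · rintro ⟨θ, hθ, h⟩
        refine ⟨α + θ • (β - α), ?_, ?_⟩
        · rw [← segment_eq_Icc hαβ, segment_eq_image']
          exact ⟨θ, hθ, rfl⟩
        · have : w + -(α • v) - θ • (β - α) • v = w - (α + θ • (β - α)) • v := by
            rw [add_smul, smul_eq_mul, smul_smul]
            abel
          rwa [this] at h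
    rw [hset, measure_preimage_add_right, hI, Real.volume_Icc]
    have hfin : volume (L + segment ℝ 0 ((β - α) • v)) ≠ ⊤ :=
      (compact_add_seg hL _).measure_lt_top.ne
    rw [← ENNReal.ofReal_toReal hfin, hv (β - α) (by linarith),
      ENNReal.ofReal_add ENNReal.toReal_nonneg (mul_nonneg (by linarith) hc),
      ENNReal.ofReal_toReal hL.measure_lt_top.ne, ENNReal.ofReal_mul (by linarith), mul_comm]
  · have hz : z ∉ K + segment ℝ 0 u := by
      intro h
      obtain ⟨t, ht, h⟩ := mem_add_seg.1 h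
      exact hne ⟨t, ht, h⟩
    rw [indicator_of_notMem hz, not_nonempty_iff_eq_empty.1 hne, measure_empty, mul_zero, add_zero]
    have : Prod.mk z ⁻¹' (K ×ˢ L + segment ℝ 0 (u, v)) = ∅ := by
      rw [eq_empty_iff_forall_notMem]
      intro w hw
      obtain ⟨t, ht, -⟩ := mem_S.1 hw
      exact hne ⟨t, ht⟩
    rw [this, measure_empty]

omit [FiniteDimensional ℝ V] in
theorem int_I [SigmaFinite (volume : Measure V)] [SecondCountableTopology V]
    {K : Set V} (hK : IsClosed K) (u : V) :
    ∫⁻ z, volume (I K u z) = volume K := by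
  set R : Set (V × ℝ) := {p | p.2 ∈ Icc (0 : ℝ) 1 ∧ p.1 - p.2 • u ∈ K} with hR
  have hRc : IsClosed R := by
    refine (isClosed_Icc.preimage continuous_snd).inter (hK.preimage ?_)
    fun_prop
  have hRm : MeasurableSet R := hRc.measurableSet
  have h1 : (volume.prod volume) R = ∫⁻ z, volume (I K u z) := by
    rw [Measure.prod_apply hRm]
    rfl
  rw [← h1, Measure.prod_apply_symm hRm]
  have h2 : ∀ t : ℝ, volume ((fun z : V => (z, t)) ⁻¹' R) =
      (Icc (0 : ℝ) 1).indicator (fun _ => volume K) t := by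
    intro t
    by_cases ht : t ∈ Icc (0 : ℝ) 1
    · rw [indicator_of_mem ht]
      have : (fun z : V => (z, t)) ⁻¹' R = (fun z => z + (-(t • u))) ⁻¹' K := by
        ext z
        simp only [hR, mem_preimage, mem_ofPred_eq, ht, true_and, sub_eq_add_neg]
      rw [this, measure_preimage_add_right]
    · rw [indicator_of_notMem ht]
      have : (fun z : V => (z, t)) ⁻¹' R = ∅ := by
        rw [eq_empty_iff_forall_notMem]
        intro z hz
        exact ht hz.1
      rw [this, measure_empty]
  simp_rw [h2]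
  rw [lintegral_indicator measurableSet_Icc]
  simp

end

end ProdF

open ProdF in
/-- **The volume of a product swept along a diagonal segment.** -/
theorem prodF {V W : Type*}
    [NormedAddCommGroup V] [NormedSpace ℝ V] [FiniteDimensional ℝ V] [MeasureSpace V]
    [BorelSpace V] [(volume : Measure V).IsAddHaarMeasure]
    [NormedAddCommGroup W] [NormedSpace ℝ W] [FiniteDimensional ℝ W] [MeasureSpace W]
    [BorelSpace W] [(volume : Measure W).IsAddHaarMeasure]
    {K : Set V} {L : Set W} (hK : IsCompact K) (hKc : Convex ℝ K) (hL : IsCompact L)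
    (u : V) (v : W) (c : ℝ)
    (hv : ∀ s : ℝ, 0 ≤ s → (volume (L + segment ℝ 0 (s • v))).toReal = (volume L).toReal + s * c) :
    ((volume.prod volume) (K ×ˢ L + segment ℝ 0 (u, v))).toReal =
      (volume L).toReal * (volume (K + segment ℝ 0 u)).toReal + c * (volume K).toReal := by
  have hc : 0 ≤ c := by
    have h1 := hv 1 zero_le_one
    rw [one_smul, one_mul] at h1
    have h2 : (volume L).toReal ≤ (volume (L + segment ℝ 0 v)).toReal := by
      refine ENNReal.toReal_mono (compact_add_seg hL _).measure_lt_top.ne (measure_mono ?_)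
      intro x hx
      exact ⟨x, hx, 0, left_mem_segment ℝ 0 v, add_zero x⟩
    linarith
  have hS : MeasurableSet (K ×ˢ L + segment ℝ 0 (u, v)) :=
    (compact_add_seg (hK.prod hL) (u, v)).isClosed.measurableSet
  rw [Measure.prod_apply hS]
  simp_rw [fibre hK hKc hL u v hc hv]
  have hA : MeasurableSet (K + segment ℝ 0 u) :=
    (compact_add_seg hK u).isClosed.measurableSet
  rw [lintegral_add_left (measurable_const.indicator hA),
    lintegral_const_mul' _ _ ENNReal.ofReal_ne_top, int_I hK.isClosed u,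
    lintegral_indicator hA, lintegral_const, Measure.restrict_apply MeasurableSet.univ,
    univ_inter, ENNReal.toReal_add, ENNReal.toReal_mul, ENNReal.toReal_mul,
    ENNReal.toReal_ofReal hc]
  · exact ENNReal.mul_ne_top hL.measure_lt_top.ne (compact_add_seg hK u).measure_lt_top.ne
  · exact ENNReal.mul_ne_top ENNReal.ofReal_ne_top hK.measure_lt_top.ne

end P237
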