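import Mathlib
import Vale.Agent.P237.Defs
import Vale.Agent.P237.Sweep
import Vale.Agent.P237.Core
import Vale.Agent.P237.ProdF
import Vale.Agent.P237.Cat
import Vale.Agent.P237.One
import Vale.Agent.P237.Plane
import Vale.Agent.P237.AffE
import Vale.Agent.P237.GammaRow
import Vale.Agent.P237.Asy
import Vale.Agent.P237.G2

open MeasureTheory Set
open scoped Pointwise RealInnerProductSpace

namespace P237

theorem cat_add_segment {m n : ℕ} (K : Set (E m)) (L : Set (E n)) (w : E (m + n)) :
    cat K L + segment ℝ 0 w = catL m n ⁻¹' (K ×ˢ L + segment ℝ 0 (fst w, snd w)) := by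
  have h1 : segment ℝ 0 w = catL m n ⁻¹' segment ℝ 0 (fst w, snd w) := by
    have h := image_segment ℝ (catL m n : E (m + n) →L[ℝ] E m × E n).toLinearMap.toAffineMap 0 w
    simp only [LinearMap.coe_toAffineMap, map_zero] at h
    have h2 : (catL m n) '' segment ℝ 0 w = segment ℝ 0 (fst w, snd w) := h
    rw [← h2]
    exact ((catL m n).injective.preimage_image _).symm
  have h3 : cat K L = catL m n ⁻¹' (K ×ˢ L) := cat_eq K L
  rw [h1, h3]
  ext x
  constructor
  · rintro ⟨a, ha, b, hb, rfl⟩
    exact ⟨_, ha, _, hb, (map_add (catL m n) a b).symm⟩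
  · rintro ⟨a, ha, b, hb, hab⟩
    refine ⟨(catL m n).symm a, ?_, (catL m n).symm b, ?_, ?_⟩
    · rw [mem_preimage, ContinuousLinearEquiv.apply_symm_apply]
      exact ha
    · rw [mem_preimage, ContinuousLinearEquiv.apply_symm_apply]
      exact hb
    · show (catL m n).symm a + (catL m n).symm b = x
      rw [← map_add]
      have hab' : a + b = catL m n x := hab
      rw [hab', ContinuousLinearEquiv.symm_apply_apply]

theorem sw_cat {m n : ℕ} {K : Set (E m)} {L : Set (E n)} (hK : Body K) (hL : Body L)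
    (w : E (m + n)) :
    sw (cat K L) w = vol L * sw K (fst w) + vol K * sw L (snd w) := by
  have h1 : volume (cat K L + segment ℝ 0 w) =
      (volume.prod volume) (K ×ˢ L + segment ℝ 0 (fst w, snd w)) := by
    rw [cat_add_segment]
    refine (catL_mp m n).measure_preimage ?_
    refine IsClosed.nullMeasurableSet ?_
    refine ((hK.compact.prod hL.compact).add ?_).isClosed
    rw [segment_eq_image]
    exact isCompact_Icc.image (by fun_prop)
  have h2 := prodF hK.compact hK.convex hL.compact (fst w) (snd w) (sw L (snd w)) (by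
    intro s hs
    have h := sw_smul hL.compact hL.convex (snd w) hs
    rw [← h, sw]
    ring)
  have h3 : (volume (cat K L)).toReal = vol K * vol L := cat_vol K L
  unfold sw at h2 ⊢
  rw [h1, h2, h3]
  unfold vol
  ring

theorem projBody_cat {m n : ℕ} {K : Set (E m)} {L : Set (E n)} (hK : Body K) (hL : Body L) :
    cat (vol L • projBody K) (vol K • projBody L) ⊆ projBody (cat K L) := by
  rintro x ⟨⟨a, ha, hax⟩, ⟨b, hb, hbx⟩⟩
  rw [mem_iff (cat_body hK hL)]
  intro w
  have ha' := (mem_iff hK a).1 ha (fst w)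
  have hb' := (mem_iff hL b).1 hb (snd w)
  have hax' : vol L • a = fst x := hax
  have hbx' : vol K • b = snd x := hbx
  rw [sw_cat hK hL, inner_fst_snd, ← hax', ← hbx', real_inner_smul_left, real_inner_smul_left]
  have h1 := mul_le_mul_of_nonneg_left ha' (body_vol_pos hL).le
  have h2 := mul_le_mul_of_nonneg_left hb' (body_vol_pos hK).le
  linarith

theorem vol_projBody_cat {m n : ℕ} {K : Set (E m)} {L : Set (E n)} (hK : Body K) (hL : Body L) :
    vol L ^ m * vol (projBody K) * (vol K ^ n * vol (projBody L)) ≤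
      vol (projBody (cat K L)) := by
  have h := vol_mono (projBody_compact (cat_body hK hL)) (projBody_cat hK hL)
  rwa [cat_vol, vol_smul _ (body_vol_pos hL).le, vol_smul _ (body_vol_pos hK).le] at h

theorem block_bound {n : ℕ} {K : Set (E n)} (h : Block n K) :
    Body K ∧ 1 ≤ n ∧ 2 ^ n * vol K ^ (n - 1) ≤ vol (projBody K) := by
  induction h with
  | one hK =>
    refine ⟨hK, le_rfl, ?_⟩
    have := one_bound hK
    simpa using this
  | two hK =>
    refine ⟨hK, by norm_num, ?_⟩
    have := plane hK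
    simpa using this
  | @prod m n K L _ _ ihK ihL =>
    obtain ⟨hK, hm, hK2⟩ := ihK
    obtain ⟨hL, hn, hL2⟩ := ihL
    refine ⟨cat_body hK hL, by omega, ?_⟩
    refine le_trans ?_ (vol_projBody_cat hK hL)
    have pK := body_vol_pos hK
    have pL := body_vol_pos hL
    have q1 : 0 ≤ vol (projBody K) := ENNReal.toReal_nonneg
    have q2 : 0 ≤ vol (projBody L) := ENNReal.toReal_nonneg
    have e1 : vol K ^ (m + n - 1) = vol K ^ (m - 1) * vol K ^ n := by
      rw [← pow_add]; congr 1; omega
    have e2 : vol L ^ (m + n - 1) = vol L ^ m * vol L ^ (n - 1) := by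
      rw [← pow_add]; congr 1; omega
    rw [cat_vol, mul_pow, e1, e2, pow_add]
    calc 2 ^ m * 2 ^ n * (vol K ^ (m - 1) * vol K ^ n * (vol L ^ m * vol L ^ (n - 1)))
        = (vol L ^ m * (2 ^ m * vol K ^ (m - 1))) * (vol K ^ n * (2 ^ n * vol L ^ (n - 1))) := by
          ring
      _ ≤ _ := by gcongr
  | @affine n K T a _ ih =>
    obtain ⟨hK, hn, hK2⟩ := ih
    refine ⟨AffE.body_image hK T a, hn, ?_⟩
    rw [AffE.vol_projBody_image (fun K hK x => mem_iff hK x) hK T a, AffE.vol_image, mul_pow]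
    have := AffE.dt_pos T
    calc 2 ^ n * (AffE.dt T ^ (n - 1) * vol K ^ (n - 1))
        = AffE.dt T ^ (n - 1) * (2 ^ n * vol K ^ (n - 1)) := by ring
      _ ≤ _ := by gcongr

theorem petty_lt_two_pow {n : ℕ} (hn : 3 ≤ n) : petty n < 2 ^ n :=
  petty_lt (by omega) (kappa_lt n hn)

theorem petty_lt_asy {n : ℕ} (hn : 3 ≤ n) : petty n < 2 ^ n * (4 / √(n : ℝ)) ^ (n - 1) := by
  have h := kappa_asy n hn
  have hk := kappa_pos n
  have e : kappa n ^ (2 - (n : ℤ)) = (kappa n ^ (n - 2))⁻¹ := by
    rw [← zpow_natCast, ← zpow_neg]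
    congr 1
    have : 2 ≤ n := by omega
    push_cast [this]
    ring
  rw [petty, e, ← div_eq_mul_inv, div_lt_iff₀ (pow_pos hk _)]
  exact h

theorem contains_bound {n : ℕ} {K L : Set (E n)} (hK : Body K) (hL : Block n L) (h : L ⊆ K) :
    2 ^ n * vol L ^ (n - 1) ≤ vol (projBody K) :=
  (block_bound hL).2.2.trans (vol_projBody_mono hK (block_bound hL).1 h)

theorem contains_sqrt {n : ℕ} (hn : 3 ≤ n) {K L : Set (E n)} (hK : Body K) (hL : Block n L)
    (h : L ⊆ K) (hv : 4 / √(n : ℝ) * vol K ≤ vol L) :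
    petty n * vol K ^ (n - 1) < vol (projBody K) := by
  refine lt_of_lt_of_le ?_ (contains_bound hK hL h)
  have p := body_vol_pos hK
  calc petty n * vol K ^ (n - 1) < 2 ^ n * (4 / √(n : ℝ)) ^ (n - 1) * vol K ^ (n - 1) := by
        have := petty_lt_asy hn
        gcongr
    _ = 2 ^ n * (4 / √(n : ℝ) * vol K) ^ (n - 1) := by rw [mul_pow]; ring
    _ ≤ _ := by gcongr


theorem petty_add_lt {m n : ℕ} (hm : 1 ≤ m) (hn : 1 ≤ n) (h : 3 ≤ m + n) :
    petty (m + n) < petty m * petty n := G2.cc_lt m n hm hn h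

theorem petty_pos (n : ℕ) : 0 < petty n := G2.cc_pos n

/-- Petty's inequality passes to direct products and becomes strict. -/
theorem petty_cat {m n : ℕ} (hm : 1 ≤ m) (hn : 1 ≤ n) (h : 3 ≤ m + n) {K : Set (E m)}
    {L : Set (E n)} (hK : Body K) (hL : Body L)
    (hpK : petty m * vol K ^ (m - 1) ≤ vol (projBody K))
    (hpL : petty n * vol L ^ (n - 1) ≤ vol (projBody L)) :
    petty (m + n) * vol (cat K L) ^ (m + n - 1) < vol (projBody (cat K L)) := by
  refine lt_of_lt_of_le ?_ (vol_projBody_cat hK hL)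
  have pK := body_vol_pos hK
  have pL := body_vol_pos hL
  have q1 : 0 ≤ vol (projBody K) := ENNReal.toReal_nonneg
  have q2 : 0 ≤ vol (projBody L) := ENNReal.toReal_nonneg
  have r1 := petty_pos m
  have r2 := petty_pos n
  have e1 : vol K ^ (m + n - 1) = vol K ^ (m - 1) * vol K ^ n := by
    rw [← pow_add]; congr 1; omega
  have e2 : vol L ^ (m + n - 1) = vol L ^ m * vol L ^ (n - 1) := by
    rw [← pow_add]; congr 1; omega
  rw [cat_vol, mul_pow]
  calc petty (m + n) * (vol K ^ (m + n - 1) * vol L ^ (m + n - 1))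
      < petty m * petty n * (vol K ^ (m + n - 1) * vol L ^ (m + n - 1)) := by
        have := petty_add_lt hm hn h
        gcongr
    _ = (vol L ^ m * (petty m * vol K ^ (m - 1))) * (vol K ^ n * (petty n * vol L ^ (n - 1))) := by
        rw [e1, e2]
        ring
    _ ≤ _ := by gcongr

end P237
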