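import Vale.Agent.P237.Cone5

/-! P237: the class generated by bodies of dimension one and two under direct products, pyramids and
affine maps. -/

open MeasureTheory Set
open scoped Pointwise RealInnerProductSpace ENNReal

namespace P237

/-- The class of sets generated by the convex bodies of dimension one and two under direct
products, pyramids and invertible affine maps. -/
inductive Tower : (n : ℕ) → Set (E n) → Prop
  | one {K : Set (E 1)} : Body K → Tower 1 K
  | two {K : Set (E 2)} : Body K → Tower 2 K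
  | prod {m n : ℕ} {K : Set (E m)} {L : Set (E n)} : Tower m K → Tower n L →
      Tower (m + n) (cat K L)
  | cone {n : ℕ} {K : Set (E n)} : Tower n K → Tower (n + 1) (cone K)
  | affine {n : ℕ} {K : Set (E n)} (T : E n ≃L[ℝ] E n) (a : E n) : Tower n K →
      Tower n ((fun x => a + T x) '' K)

theorem tower_bound {n : ℕ} {K : Set (E n)} (h : Tower n K) :
    Body K ∧ 1 ≤ n ∧ 2 ^ n * vol K ^ (n - 1) ≤ vol (projBody K) := by
  induction h with
  | one hK =>
    refine ⟨hK, le_rfl, ?_⟩
    have := one_bound hK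
    simpa using this
  | two hK =>
    refine ⟨hK, by norm_num, ?_⟩
    have := plane hK
    simpa using this
  | @prod m n K L _ _ ihK ihL =>
    obtain ⟨hK, hm, hK2⟩ := ihK
    obtain ⟨hL, hn, hL2⟩ := ihL
    refine ⟨cat_body hK hL, by omega, ?_⟩
    refine le_trans ?_ (vol_projBody_cat hK hL)
    have pK := body_vol_pos hK
    have pL := body_vol_pos hL
    have q1 : 0 ≤ vol (projBody K) := ENNReal.toReal_nonneg
    have q2 : 0 ≤ vol (projBody L) := ENNReal.toReal_nonneg
    have e1 : vol K ^ (m + n - 1) = vol K ^ (m - 1) * vol K ^ n := by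
      rw [← pow_add]; congr 1; omega
    have e2 : vol L ^ (m + n - 1) = vol L ^ m * vol L ^ (n - 1) := by
      rw [← pow_add]; congr 1; omega
    rw [cat_vol, mul_pow, e1, e2, pow_add]
    calc 2 ^ m * 2 ^ n * (vol K ^ (m - 1) * vol K ^ n * (vol L ^ m * vol L ^ (n - 1)))
        = (vol L ^ m * (2 ^ m * vol K ^ (m - 1))) * (vol K ^ n * (2 ^ n * vol L ^ (n - 1))) := by
          ring
      _ ≤ _ := by gcongr
  | @cone n K _ ih =>
    obtain ⟨hK, hn, hK2⟩ := ih
    exact ⟨cone_body hK, by omega, cone_case hn hK hK2⟩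
  | @affine n K T a _ ih =>
    obtain ⟨hK, hn, hK2⟩ := ih
    refine ⟨AffE.body_image hK T a, hn, ?_⟩
    rw [AffE.vol_projBody_image (fun K hK x => mem_iff hK x) hK T a, AffE.vol_image, mul_pow]
    have := AffE.dt_pos T
    calc 2 ^ n * (AffE.dt T ^ (n - 1) * vol K ^ (n - 1))
        = AffE.dt T ^ (n - 1) * (2 ^ n * vol K ^ (n - 1)) := by ring
      _ ≤ _ := by gcongr

theorem tower_contains {n : ℕ} {K L : Set (E n)} (hK : Body K) (hL : Tower n L) (h : L ⊆ K) :
    2 ^ n * vol L ^ (n - 1) ≤ vol (projBody K) :=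
  (tower_bound hL).2.2.trans (vol_projBody_mono hK (tower_bound hL).1 h)

theorem tower_contains_sqrt {n : ℕ} (hn : 3 ≤ n) {K L : Set (E n)} (hK : Body K) (hL : Tower n L)
    (h : L ⊆ K) (hv : 4 / √(n : ℝ) * vol K ≤ vol L) :
    petty n * vol K ^ (n - 1) < vol (projBody K) := by
  refine lt_of_lt_of_le ?_ (tower_contains hK hL h)
  have p := body_vol_pos hK
  calc petty n * vol K ^ (n - 1) < 2 ^ n * (4 / √(n : ℝ)) ^ (n - 1) * vol K ^ (n - 1) := by
        have := petty_lt_asy hn
        gcongr
    _ = 2 ^ n * (4 / √(n : ℝ) * vol K) ^ (n - 1) := by rw [mul_pow]; ring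
    _ ≤ _ := by gcongr

end P237
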